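import Mathlib

/-!
# P207: a growth estimate for a pair of linear equations on the past, with a variable rate
-/

open scoped Topology
open Set Filter MeasureTheory

noncomputable section

namespace Vale.Agent.P207.Q.H791

/-- decay estimate on the past -/
theorem past_bound {n n' : ℝ → ℝ} {l κ : ℝ} (hl : 0 < l)
    (hn : ∀ s, HasDerivAt n (n' s) s) (h : ∀ s, l * n s - l * κ ≤ n' s) (hκ : 0 ≤ κ)
    (h0 : 0 ≤ n 0) {s : ℝ} (hs : s ≤ 0) : n s ≤ n 0 + κ := by
  have hmono : Monotone fun s => (n s - κ) * Real.exp (-(l * s)) := by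
    have hd : ∀ s, HasDerivAt (fun s => (n s - κ) * Real.exp (-(l * s)))
        ((n' s - l * (n s - κ)) * Real.exp (-(l * s))) s := by
      intro s
      have h1 : HasDerivAt (fun s : ℝ => -(l * s)) (-l) s := by
        simpa using ((hasDerivAt_id s).const_mul l).fun_neg
      refine (((hn s).sub_const κ).fun_mul h1.exp).congr_deriv ?_
      ring
    refine monotone_of_deriv_nonneg (fun s => (hd s).differentiableAt) fun s => ?_
    rw [(hd s).deriv]
    exact mul_nonneg (by linarith [h s]) (Real.exp_pos _).le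
  have h1 := hmono hs
  simp only [mul_zero, neg_zero, Real.exp_zero, mul_one] at h1
  have h2 : 1 ≤ Real.exp (-(l * s)) := Real.one_le_exp (by nlinarith)
  by_contra hc
  push Not at hc
  have h3 : 0 ≤ n s - κ := by linarith
  nlinarith

/-- growth estimate: `N' ≥ - e N - d` on the past gives `N ≤ exp (∫ e) (N 0 + d / l)` -/
theorem past_growth {N N' e : ℝ → ℝ} {l d : ℝ} (hl : 0 < l) (hd0 : 0 ≤ d)
    (he : Continuous e) (hel : ∀ s, l ≤ e s)
    (hN : ∀ s, HasDerivAt N (N' s) s) (h : ∀ s ≤ 0, - e s * N s - d ≤ N' s) {s : ℝ}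
    (hs : s ≤ 0) : N s ≤ Real.exp (∫ u in s..0, e u) * (N 0 + d / l) := by
  set I : ℝ → ℝ := fun s => ∫ u in s..0, e u with hI
  have hId : ∀ s, HasDerivAt I (- e s) s := fun s =>
    intervalIntegral.integral_hasDerivAt_left (he.intervalIntegrable _ _)
      (he.stronglyMeasurableAtFilter _ _) he.continuousAt
  have hIl : ∀ s ≤ 0, l * (-s) ≤ I s := by
    intro s hs
    have h1 : ∫ u in s..0, l ≤ ∫ u in s..0, e u :=
      intervalIntegral.integral_mono_on hs intervalIntegrable_const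
        (he.intervalIntegrable _ _) fun u _ => hel u
    rw [intervalIntegral.integral_const, smul_eq_mul] at h1
    simp only [hI]
    linarith
  set G : ℝ → ℝ := fun s => N s * Real.exp (-(I s)) + d / l * Real.exp (l * s) with hG
  have hGd : ∀ s, HasDerivAt G ((N' s + e s * N s) * Real.exp (-(I s)) +
      d * Real.exp (l * s)) s := by
    intro s
    have h1 : HasDerivAt (fun s : ℝ => Real.exp (-(I s))) (Real.exp (-(I s)) * (e s)) s := by
      have := (hId s).fun_neg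
      rw [neg_neg] at this
      exact this.exp
    have h2 : HasDerivAt (fun s : ℝ => Real.exp (l * s)) (Real.exp (l * s) * l) s := by
      have : HasDerivAt (fun s : ℝ => l * s) l s := by simpa using (hasDerivAt_id s).const_mul l
      exact this.exp
    refine (((hN s).fun_mul h1).fun_add (h2.const_mul (d / l))).congr_deriv ?_
    have : d / l * (Real.exp (l * s) * l) = d * Real.exp (l * s) := by field_simp
    rw [this]
    ring
  have hmono : MonotoneOn G (Iic 0) := by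
    refine monotoneOn_of_deriv_nonneg (convex_Iic 0)
      (fun s _ => (hGd s).continuousAt.continuousWithinAt)
      (fun s _ => (hGd s).differentiableAt.differentiableWithinAt) fun s hs => ?_
    rw [interior_Iic] at hs
    have hs' : s < 0 := hs
    rw [(hGd s).deriv]
    have h1 := h s hs'.le
    have h2 : Real.exp (-(I s)) ≤ Real.exp (l * s) :=
      Real.exp_le_exp.2 (by linarith [hIl s hs'.le])
    have h3 : -d ≤ N' s + e s * N s := by linarith
    have h4 : -d * Real.exp (-(I s)) ≤ (N' s + e s * N s) * Real.exp (-(I s)) :=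
      mul_le_mul_of_nonneg_right h3 (Real.exp_pos _).le
    have h5 : d * Real.exp (-(I s)) ≤ d * Real.exp (l * s) :=
      mul_le_mul_of_nonneg_left h2 hd0
    linarith
  have h1 := hmono (mem_Iic.2 hs) (mem_Iic.2 (le_refl (0 : ℝ))) hs
  have hI0 : I 0 = 0 := by simp [hI]
  simp only [hG, hI0, neg_zero, Real.exp_zero, mul_one, mul_zero] at h1
  have h2 : 0 ≤ d / l * Real.exp (l * s) := by positivity
  have h3 : N s * Real.exp (-(I s)) ≤ N 0 + d / l := by linarith
  calc N s = Real.exp (I s) * (N s * Real.exp (-(I s))) := by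
        rw [mul_comm (N s), ← mul_assoc, ← Real.exp_add]; simp
    _ ≤ Real.exp (I s) * (N 0 + d / l) := mul_le_mul_of_nonneg_left h3 (Real.exp_pos _).le

section Pair

variable {a0 a1 b0 b1 K00 K01 K11 R0 R1 u v w e : ℝ → ℝ} {l c1 : ℝ}

/-- the unstable components decay on the past -/
theorem pair_decay (hl : 0 < l)
    (ha0 : ∀ s, HasDerivAt a0 (b0 s) s) (ha1 : ∀ s, HasDerivAt a1 (b1 s) s)
    (hb0 : ∀ s, HasDerivAt b0 (K00 s * a0 s + K01 s * a1 s + R0 s) s)
    (hb1 : ∀ s, HasDerivAt b1 (K01 s * a0 s + K11 s * a1 s + R1 s) s)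
    (hu : ∀ s, HasDerivAt u (-(K00 s - (u s * u s + v s * v s))) s)
    (hv : ∀ s, HasDerivAt v (-(K01 s - (u s * v s + v s * w s))) s)
    (hw : ∀ s, HasDerivAt w (-(K11 s - (v s * v s + w s * w s))) s)
    (hlo : ∀ s x y, l * (x ^ 2 + y ^ 2) ≤ u s * x ^ 2 + 2 * v s * (x * y) + w s * y ^ 2)
    (hR : ∀ s, R0 s ^ 2 + R1 s ^ 2 ≤ c1 ^ 2) {s : ℝ} (hs : s ≤ 0) :
    (b0 s + (u s * a0 s + v s * a1 s)) ^ 2 + (b1 s + (v s * a0 s + w s * a1 s)) ^ 2 ≤
      (b0 0 + (u 0 * a0 0 + v 0 * a1 0)) ^ 2 + (b1 0 + (v 0 * a0 0 + w 0 * a1 0)) ^ 2 +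
        c1 ^ 2 / l ^ 2 := by
  set D0 : ℝ → ℝ := fun s => b0 s + (u s * a0 s + v s * a1 s) with hD0
  set D1 : ℝ → ℝ := fun s => b1 s + (v s * a0 s + w s * a1 s) with hD1
  have hd0 : ∀ s, HasDerivAt D0 (u s * D0 s + v s * D1 s + R0 s) s := by
    intro s
    refine ((hb0 s).fun_add (((hu s).fun_mul (ha0 s)).fun_add
      ((hv s).fun_mul (ha1 s)))).congr_deriv ?_
    simp only [hD0, hD1]
    ring
  have hd1 : ∀ s, HasDerivAt D1 (v s * D0 s + w s * D1 s + R1 s) s := by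
    intro s
    refine ((hb1 s).fun_add (((hv s).fun_mul (ha0 s)).fun_add
      ((hw s).fun_mul (ha1 s)))).congr_deriv ?_
    simp only [hD0, hD1]
    ring
  have hnD : ∀ s, HasDerivAt (fun s => D0 s ^ 2 + D1 s ^ 2)
      (2 * D0 s * (u s * D0 s + v s * D1 s + R0 s) +
       2 * D1 s * (v s * D0 s + w s * D1 s + R1 s)) s := by
    intro s
    refine (((hd0 s).fun_pow 2).fun_add ((hd1 s).fun_pow 2)).congr_deriv ?_
    push_cast
    ring
  refine past_bound (n := fun s => D0 s ^ 2 + D1 s ^ 2) (κ := c1 ^ 2 / l ^ 2) hl hnD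
    (fun s => ?_) (by positivity) (by positivity) hs
  have h1 := hlo s (D0 s) (D1 s)
  have hlk : l * (c1 ^ 2 / l ^ 2) = c1 ^ 2 / l := by field_simp
  rw [hlk]
  have hyoung : ∀ x y : ℝ, -(l * x ^ 2) - y ^ 2 / l ≤ 2 * x * y := by
    intro x y
    have h3 : 0 ≤ (l * x + y) ^ 2 / l := by positivity
    have h4 : (l * x + y) ^ 2 / l = l * x ^ 2 + 2 * x * y + y ^ 2 / l := by
      field_simp
      ring
    linarith
  have y0 := hyoung (D0 s) (R0 s)
  have y1 := hyoung (D1 s) (R1 s)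
  have h5 : R0 s ^ 2 / l + R1 s ^ 2 / l ≤ c1 ^ 2 / l := by
    rw [← add_div]
    exact div_le_div_of_nonneg_right (hR s) hl.le
  linarith

/-- the growth of the components on the past -/
theorem pair_growth {d N0 : ℝ} (hl : 0 < l) (hd : 0 ≤ d) (he : Continuous e)
    (hel : ∀ s, l ≤ e s)
    (ha0 : ∀ s, HasDerivAt a0 (b0 s) s) (ha1 : ∀ s, HasDerivAt a1 (b1 s) s)
    (hup : ∀ s x y, u s * x ^ 2 + 2 * v s * (x * y) + w s * y ^ 2 ≤ e s * (x ^ 2 + y ^ 2))
    (hD : ∀ s ≤ 0, (b0 s + (u s * a0 s + v s * a1 s)) ^ 2 +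
      (b1 s + (v s * a0 s + w s * a1 s)) ^ 2 ≤ d ^ 2)
    (hN0 : 0 ≤ N0) (h0 : a0 0 ^ 2 + a1 0 ^ 2 + 1 ≤ N0 ^ 2) {s : ℝ} (hs : s ≤ 0) :
    a0 s ^ 2 + a1 s ^ 2 ≤ (Real.exp (∫ σ in s..0, e σ) * (N0 + d / l)) ^ 2 := by
  set N : ℝ → ℝ := fun s => Real.sqrt (a0 s ^ 2 + a1 s ^ 2 + 1) with hN
  have hN1 : ∀ s, 1 ≤ N s := fun s => by
    simp only [hN]
    exact Real.one_le_sqrt.2 (by nlinarith [sq_nonneg (a0 s), sq_nonneg (a1 s)])
  have hN2 : ∀ s, N s ^ 2 = a0 s ^ 2 + a1 s ^ 2 + 1 := fun s => Real.sq_sqrt (by positivity)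
  have hNd : ∀ s, HasDerivAt N ((a0 s * b0 s + a1 s * b1 s) / N s) s := by
    intro s
    have h1 : HasDerivAt (fun s => a0 s ^ 2 + a1 s ^ 2 + 1)
        (2 * (a0 s * b0 s + a1 s * b1 s)) s := by
      refine ((((ha0 s).fun_pow 2).fun_add ((ha1 s).fun_pow 2)).add_const 1).congr_deriv ?_
      push_cast
      ring
    refine (h1.sqrt (by positivity)).congr_deriv ?_
    simp only [hN]
    rw [mul_div_mul_left _ _ (by norm_num : (2 : ℝ) ≠ 0)]
  have hineq : ∀ s ≤ 0, - e s * N s - d ≤ (a0 s * b0 s + a1 s * b1 s) / N s := by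
    intro s hs
    have hNp : 0 < N s := lt_of_lt_of_le one_pos (hN1 s)
    rw [le_div_iff₀ hNp]
    set D0 := b0 s + (u s * a0 s + v s * a1 s) with hD0
    set D1 := b1 s + (v s * a0 s + w s * a1 s) with hD1
    have h1 := hup s (a0 s) (a1 s)
    have hDs : D0 ^ 2 + D1 ^ 2 ≤ d ^ 2 := hD s hs
    have hcs : -(N s * d) ≤ a0 s * D0 + a1 s * D1 := by
      have h3 : (a0 s * D0 + a1 s * D1) ^ 2 ≤ (N s * d) ^ 2 := by
        have h4 : (a0 s * D0 + a1 s * D1) ^ 2 ≤ (a0 s ^ 2 + a1 s ^ 2) * (D0 ^ 2 + D1 ^ 2) := by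
          nlinarith [sq_nonneg (a0 s * D1 - a1 s * D0)]
        have h5 : (a0 s ^ 2 + a1 s ^ 2) * (D0 ^ 2 + D1 ^ 2) ≤ N s ^ 2 * d ^ 2 := by
          refine mul_le_mul ?_ hDs (by positivity) (by positivity)
          rw [hN2]; linarith
        calc _ ≤ _ := h4
          _ ≤ _ := h5
          _ = _ := by ring
      exact (abs_le.1 (abs_le_of_sq_le_sq h3 (by positivity))).1
    have hea : 0 ≤ e s := hl.le.trans (hel s)
    have h7 : e s * (a0 s ^ 2 + a1 s ^ 2) ≤ e s * N s ^ 2 := by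
      refine mul_le_mul_of_nonneg_left ?_ hea
      rw [hN2]; linarith
    have e1 : a0 s * b0 s + a1 s * b1 s = (a0 s * D0 + a1 s * D1) -
        (u s * a0 s ^ 2 + 2 * v s * (a0 s * a1 s) + w s * a1 s ^ 2) := by
      rw [hD0, hD1]; ring
    rw [e1]
    nlinarith
  have hg := past_growth hl hd he hel hNd hineq hs
  have hN00 : N 0 ≤ N0 := by
    simp only [hN]
    rw [Real.sqrt_le_left hN0]
    exact h0
  have hE := Real.exp_pos (∫ σ in s..0, e σ)
  have h2 : N s ≤ Real.exp (∫ σ in s..0, e σ) * (N0 + d / l) :=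
    hg.trans (mul_le_mul_of_nonneg_left (by linarith) hE.le)
  have h3 : N s ^ 2 ≤ (Real.exp (∫ σ in s..0, e σ) * (N0 + d / l)) ^ 2 :=
    pow_le_pow_left₀ (by linarith [hN1 s]) h2 2
  rw [hN2] at h3
  linarith

end Pair

end Vale.Agent.P207.Q.H791
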