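import Vale.Agent.P207.Q.H129.Trans
import Vale.Agent.P207.Q.H791.GrowthA

/-!
# P207: growth of the derivatives of `f ∘ φ_r` on the past, with the variable rate `e ≥ U`
-/

open scoped Topology
open Set Filter MeasureTheory

noncomputable section

namespace Vale.Agent.P207.Q.H791

open Vale.Agent.P207.Q.H413 Vale.Agent.P207.Q.Trans Vale.Agent.P207.Q.Trans.TF

variable {P : Type} [TopologicalSpace P] [CompactSpace P] {I : C(P, ℝ) →L[ℝ] ℝ}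
  {c : Cal I} {ψ : Idx → ℝ → P → P} (T : TF c ψ)
  {K U : Fin 2 → Fin 2 → C(P, ℝ)} {ρ : Fin 2 → C(P, ℝ)}

/-- growth on the past along one orbit, with variable rate -/
theorem growthW_orbit (hRX : ∀ f : c.S, c.Y .R (c.Y .X f) = c.Y .X (c.Y .R f))
    (hHX : ∀ i (f : c.S), ((c.Y (.H i) (c.Y .X f) : c.S) : C(P, ℝ)) -
      ((c.Y .X (c.Y (.H i) f) : c.S) : C(P, ℝ)) =
      ∑ j, K i j * ((c.Y (.V j) f : c.S) : C(P, ℝ)) + ρ i * ((c.Y .R f : c.S) : C(P, ℝ)))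
    (hKs : K 1 0 = K 0 1)
    (hU : ∀ i j p r, HasDerivAt (fun s => U i j (ψ .X s p))
      (K i j (ψ .X r p) - ∑ k, U i k (ψ .X r p) * U k j (ψ .X r p)) r)
    (hs : U 1 0 = U 0 1) {l : ℝ} (hl : 0 < l) {e : C(P, ℝ)}
    (hlo : ∀ p (x y : ℝ), l * (x ^ 2 + y ^ 2) ≤
      U 0 0 p * x ^ 2 + 2 * U 0 1 p * (x * y) + U 1 1 p * y ^ 2)
    (hup : ∀ p (x y : ℝ), U 0 0 p * x ^ 2 + 2 * U 0 1 p * (x * y) + U 1 1 p * y ^ 2 ≤
      e p * (x ^ 2 + y ^ 2)) (f : c.S) :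
    ∃ d B : ℝ, 0 ≤ d ∧ 0 ≤ B ∧ ∀ q : P, ∀ s ≤ 0,
      ((c.Y (.V 0) (T.cmp s f) : C(P, ℝ)) (ψ .X (-s) q) ^ 2 +
        (c.Y (.V 1) (T.cmp s f) : C(P, ℝ)) (ψ .X (-s) q) ^ 2 ≤
        (Real.exp (∫ σ in s..0, e (ψ .X (-σ) q)) * B) ^ 2) ∧
      (Du c U 0 (T.cmp s f) (ψ .X (-s) q) ^ 2 + Du c U 1 (T.cmp s f) (ψ .X (-s) q) ^ 2
        ≤ d ^ 2) := by
  have bdd : ∀ u : C(P, ℝ), ∀ p, |u p| ≤ ‖u‖ := fun u p => u.norm_coe_le_norm p
  have he0 : ∀ p, l ≤ e p := fun p => by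
    have h1 := hlo p 1 0
    have h2 := hup p 1 0
    norm_num at h1 h2
    linarith
  set c1 : ℝ := (‖ρ 0‖ + ‖ρ 1‖) * ‖(c.Y .R f : C(P, ℝ))‖ with hc1
  set V0 : ℝ := ‖(c.Y (.V 0) f : C(P, ℝ))‖ with hV0
  set V1 : ℝ := ‖(c.Y (.V 1) f : C(P, ℝ))‖ with hV1
  set H0 : ℝ := ‖(c.Y (.H 0) f : C(P, ℝ))‖ with hH0
  set H1 : ℝ := ‖(c.Y (.H 1) f : C(P, ℝ))‖ with hH1
  set u : ℝ := ‖U 0 0‖ + ‖U 0 1‖ + ‖U 1 1‖ with hu
  set n0 : ℝ := (H0 + u * (V0 + V1)) ^ 2 + (H1 + u * (V0 + V1)) ^ 2 with hn0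
  have hn00 : 0 ≤ n0 := by positivity
  have hd2 : Real.sqrt (n0 + c1 ^ 2 / l ^ 2) ^ 2 = n0 + c1 ^ 2 / l ^ 2 :=
    Real.sq_sqrt (by positivity)
  refine ⟨Real.sqrt (n0 + c1 ^ 2 / l ^ 2),
    Real.sqrt (V0 ^ 2 + V1 ^ 2 + 1) + Real.sqrt (n0 + c1 ^ 2 / l ^ 2) / l,
    Real.sqrt_nonneg _, by positivity, fun q s hs0 => ?_⟩
  have e10 : ∀ s, U 1 0 (ψ .X (-s) q) = U 0 1 (ψ .X (-s) q) := fun s => by rw [hs]
  have k10 : ∀ s, K 1 0 (ψ .X (-s) q) = K 0 1 (ψ .X (-s) q) := fun s => by rw [hKs]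
  have hbd : ∀ j s, HasDerivAt (fun s => (c.Y (.H j) (T.cmp s f) : C(P, ℝ)) (ψ .X (-s) q))
      (K j 0 (ψ .X (-s) q) * (c.Y (.V 0) (T.cmp s f) : C(P, ℝ)) (ψ .X (-s) q) +
        K j 1 (ψ .X (-s) q) * (c.Y (.V 1) (T.cmp s f) : C(P, ℝ)) (ψ .X (-s) q) +
        ρ j (ψ .X (-s) q) * (c.Y .R f : C(P, ℝ)) q) s := fun j s => by
    have := T.deriv_back_H hRX hHX j f q s
    rwa [Fin.sum_univ_two] at this
  have hUd : ∀ i j s, HasDerivAt (fun s => U i j (ψ .X (-s) q))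
      (-(K i j (ψ .X (-s) q) - (U i 0 (ψ .X (-s) q) * U 0 j (ψ .X (-s) q) +
        U i 1 (ψ .X (-s) q) * U 1 j (ψ .X (-s) q)))) s := by
    intro i j s
    have := (hU i j q (-s)).comp s (hasDerivAt_neg' s)
    rw [mul_neg_one, Fin.sum_univ_two] at this
    exact this
  have hb1 := hbd 1
  simp only [k10] at hb1
  have hu0 := hUd 0 0
  have hu1 := hUd 0 1
  have hu2 := hUd 1 1
  simp only [e10] at hu0 hu1 hu2
  have hRb : ∀ s : ℝ, (ρ 0 (ψ .X (-s) q) * (c.Y .R f : C(P, ℝ)) q) ^ 2 +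
      (ρ 1 (ψ .X (-s) q) * (c.Y .R f : C(P, ℝ)) q) ^ 2 ≤ c1 ^ 2 := by
    intro s
    have r : ∀ j, |ρ j (ψ .X (-s) q) * (c.Y .R f : C(P, ℝ)) q| ≤
        ‖ρ j‖ * ‖(c.Y .R f : C(P, ℝ))‖ := by
      intro j
      rw [abs_mul]
      exact mul_le_mul (bdd _ _) (bdd _ _) (abs_nonneg _) (norm_nonneg _)
    have q0 := pow_le_pow_left₀ (abs_nonneg _) (r 0) 2
    have q1 := pow_le_pow_left₀ (abs_nonneg _) (r 1) 2
    rw [sq_abs] at q0 q1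
    have q2 : 0 ≤ (‖ρ 0‖ * ‖(c.Y .R f : C(P, ℝ))‖) * (‖ρ 1‖ * ‖(c.Y .R f : C(P, ℝ))‖) := by
      positivity
    rw [hc1]
    nlinarith
  have hdec := fun s (hs : s ≤ 0) => pair_decay (c1 := c1) hl
    (fun s => T.deriv_back_V 0 f q s) (fun s => T.deriv_back_V 1 f q s)
    (fun s => hbd 0 s) hb1 hu0 hu1 hu2 (fun s x y => hlo (ψ .X (-s) q) x y) hRb hs
  have eD : ∀ s, (c.Y (.H 0) (T.cmp s f) : C(P, ℝ)) (ψ .X (-s) q) +
      (U 0 0 (ψ .X (-s) q) * (c.Y (.V 0) (T.cmp s f) : C(P, ℝ)) (ψ .X (-s) q) +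
        U 0 1 (ψ .X (-s) q) * (c.Y (.V 1) (T.cmp s f) : C(P, ℝ)) (ψ .X (-s) q)) =
      Du c U 0 (T.cmp s f) (ψ .X (-s) q) := fun s => by
    rw [Du, Fin.sum_univ_two]
  have eD' : ∀ s, (c.Y (.H 1) (T.cmp s f) : C(P, ℝ)) (ψ .X (-s) q) +
      (U 0 1 (ψ .X (-s) q) * (c.Y (.V 0) (T.cmp s f) : C(P, ℝ)) (ψ .X (-s) q) +
        U 1 1 (ψ .X (-s) q) * (c.Y (.V 1) (T.cmp s f) : C(P, ℝ)) (ψ .X (-s) q)) =
      Du c U 1 (T.cmp s f) (ψ .X (-s) q) := fun s => by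
    rw [Du, Fin.sum_univ_two, e10]
  have hD0 : Du c U 0 (T.cmp 0 f) (ψ .X (-0) q) ^ 2 + Du c U 1 (T.cmp 0 f) (ψ .X (-0) q) ^ 2 ≤
      n0 := by
    have hUu : ∀ i j, |U i j (ψ .X (-0) q)| ≤ u := by
      intro i j
      have n1 := norm_nonneg (U 0 0)
      have n2 := norm_nonneg (U 0 1)
      have n3 := norm_nonneg (U 1 1)
      have := bdd (U i j) (ψ .X (-0) q)
      fin_cases i <;> fin_cases j <;>
        simp only [Fin.zero_eta, Fin.mk_one, Fin.isValue, hs] at this ⊢ <;>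
        linarith
    have hDj : ∀ j, |Du c U j (T.cmp 0 f) (ψ .X (-0) q)| ≤
        ‖(c.Y (.H j) f : C(P, ℝ))‖ + u * (V0 + V1) := by
      intro j
      rw [Du, Fin.sum_univ_two, T.cmp_zero]
      have t0 := bdd (c.Y (.H j) f : C(P, ℝ)) (ψ .X (-0) q)
      have t1 : |U j 0 (ψ .X (-0) q) * (c.Y (.V 0) f : C(P, ℝ)) (ψ .X (-0) q)| ≤ u * V0 := by
        rw [abs_mul]
        exact mul_le_mul (hUu j 0) (bdd _ _) (abs_nonneg _) ((abs_nonneg _).trans (hUu j 0))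
      have t2 : |U j 1 (ψ .X (-0) q) * (c.Y (.V 1) f : C(P, ℝ)) (ψ .X (-0) q)| ≤ u * V1 := by
        rw [abs_mul]
        exact mul_le_mul (hUu j 1) (bdd _ _) (abs_nonneg _) ((abs_nonneg _).trans (hUu j 1))
      have t3 := abs_add_le ((c.Y (.H j) f : C(P, ℝ)) (ψ .X (-0) q))
        (U j 0 (ψ .X (-0) q) * (c.Y (.V 0) f : C(P, ℝ)) (ψ .X (-0) q) +
          U j 1 (ψ .X (-0) q) * (c.Y (.V 1) f : C(P, ℝ)) (ψ .X (-0) q))
      have t4 := abs_add_le (U j 0 (ψ .X (-0) q) * (c.Y (.V 0) f : C(P, ℝ)) (ψ .X (-0) q))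
        (U j 1 (ψ .X (-0) q) * (c.Y (.V 1) f : C(P, ℝ)) (ψ .X (-0) q))
      linarith
    have q0 := pow_le_pow_left₀ (abs_nonneg _) (hDj 0) 2
    have q1 := pow_le_pow_left₀ (abs_nonneg _) (hDj 1) 2
    rw [sq_abs] at q0 q1
    rw [hn0]
    linarith
  have hdec' : ∀ s ≤ 0, Du c U 0 (T.cmp s f) (ψ .X (-s) q) ^ 2 +
      Du c U 1 (T.cmp s f) (ψ .X (-s) q) ^ 2 ≤ Real.sqrt (n0 + c1 ^ 2 / l ^ 2) ^ 2 := by
    intro s hs
    have h1 := hdec s hs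
    rw [eD, eD', eD, eD'] at h1
    rw [hd2]
    exact h1.trans (add_le_add hD0 le_rfl)
  refine ⟨?_, hdec' s hs0⟩
  refine pair_growth (a0 := fun s => (c.Y (.V 0) (T.cmp s f) : C(P, ℝ)) (ψ .X (-s) q))
    (a1 := fun s => (c.Y (.V 1) (T.cmp s f) : C(P, ℝ)) (ψ .X (-s) q))
    (b0 := fun s => (c.Y (.H 0) (T.cmp s f) : C(P, ℝ)) (ψ .X (-s) q))
    (b1 := fun s => (c.Y (.H 1) (T.cmp s f) : C(P, ℝ)) (ψ .X (-s) q))
    (u := fun s => U 0 0 (ψ .X (-s) q)) (v := fun s => U 0 1 (ψ .X (-s) q))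
    (w := fun s => U 1 1 (ψ .X (-s) q)) (e := fun s => e (ψ .X (-s) q)) hl
    (Real.sqrt_nonneg _) ?_ (fun s => he0 _) (fun s => T.deriv_back_V 0 f q s)
    (fun s => T.deriv_back_V 1 f q s) (fun s x y => hup _ x y) (fun s hs => ?_)
    (Real.sqrt_nonneg _) ?_ hs0
  · exact e.continuous.comp ((T.cont .X).comp (continuous_neg.prodMk continuous_const))
  · rw [eD, eD']
    exact hdec' s hs
  · rw [Real.sq_sqrt (by positivity), T.cmp_zero]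
    have q0 := pow_le_pow_left₀ (abs_nonneg _) (bdd (c.Y (.V 0) f : C(P, ℝ)) (ψ .X (-0) q)) 2
    have q1 := pow_le_pow_left₀ (abs_nonneg _) (bdd (c.Y (.V 1) f : C(P, ℝ)) (ψ .X (-0) q)) 2
    rw [sq_abs] at q0 q1
    linarith

/-- **growth on the past with variable rate** -/
theorem exists_growthW (hRX : ∀ f : c.S, c.Y .R (c.Y .X f) = c.Y .X (c.Y .R f))
    (hHX : ∀ i (f : c.S), ((c.Y (.H i) (c.Y .X f) : c.S) : C(P, ℝ)) -
      ((c.Y .X (c.Y (.H i) f) : c.S) : C(P, ℝ)) =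
      ∑ j, K i j * ((c.Y (.V j) f : c.S) : C(P, ℝ)) + ρ i * ((c.Y .R f : c.S) : C(P, ℝ)))
    (hKs : K 1 0 = K 0 1)
    (hU : ∀ i j p r, HasDerivAt (fun s => U i j (ψ .X s p))
      (K i j (ψ .X r p) - ∑ k, U i k (ψ .X r p) * U k j (ψ .X r p)) r)
    (hs : U 1 0 = U 0 1) {l : ℝ} (hl : 0 < l) {e : C(P, ℝ)}
    (hlo : ∀ p (x y : ℝ), l * (x ^ 2 + y ^ 2) ≤
      U 0 0 p * x ^ 2 + 2 * U 0 1 p * (x * y) + U 1 1 p * y ^ 2)
    (hup : ∀ p (x y : ℝ), U 0 0 p * x ^ 2 + 2 * U 0 1 p * (x * y) + U 1 1 p * y ^ 2 ≤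
      e p * (x ^ 2 + y ^ 2)) (f : c.S) :
    ∃ B, 0 ≤ B ∧ ∀ k p, ∀ r ≤ 0, |(c.Y k (T.cmp r f) : C(P, ℝ)) p| ≤
      B * Real.exp (∫ τ in r..0, e (ψ .X τ p)) := by
  have bdd : ∀ u : C(P, ℝ), ∀ p, |u p| ≤ ‖u‖ := fun u p => u.norm_coe_le_norm p
  have he0 : ∀ p, l ≤ e p := fun p => by
    have h1 := hlo p 1 0
    have h2 := hup p 1 0
    norm_num at h1 h2
    linarith
  obtain ⟨d, B0, hd0, hB0, hmain⟩ := growthW_orbit T hRX hHX hKs hU hs hl hlo hup f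
  set u : ℝ := ‖U 0 0‖ + ‖U 0 1‖ + ‖U 1 1‖ with hu
  have hu0 : 0 ≤ u := by positivity
  set cR : ℝ := ‖(c.Y .R f : C(P, ℝ))‖ with hcR
  set cX : ℝ := ‖(c.Y .X f : C(P, ℝ))‖ with hcX
  have hcR0 : 0 ≤ cR := norm_nonneg _
  have hcX0 : 0 ≤ cX := norm_nonneg _
  refine ⟨B0 + d + 2 * u * B0 + cX + cR, by positivity, fun k p r hr => ?_⟩
  set q := ψ .X r p with hq
  have hp : ψ .X (-r) q = p := by rw [hq, ← T.add, neg_add_cancel, T.zero]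
  have hint : ∫ σ in r..0, e (ψ .X (-σ) q) = ∫ τ in r..0, e (ψ .X τ p) := by
    have h1 : ∀ σ, ψ .X (-σ) q = ψ .X (r - σ) p := fun σ => by
      rw [hq, ← T.add]; congr 1; ring
    simp only [h1]
    rw [intervalIntegral.integral_comp_sub_left (fun τ => e (ψ .X τ p)) r, sub_zero, sub_self]
  obtain ⟨m1, m2⟩ := hmain q r hr
  rw [hint, hp] at m1
  rw [hp] at m2
  set E := Real.exp (∫ τ in r..0, e (ψ .X τ p)) with hE
  have hE1 : 1 ≤ E := by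
    refine Real.one_le_exp ?_
    refine intervalIntegral.integral_nonneg hr fun τ _ => hl.le.trans (he0 _)
  have hE0 : 0 ≤ E := by linarith
  have hV : ∀ j : Fin 2, |(c.Y (.V j) (T.cmp r f) : C(P, ℝ)) p| ≤ E * B0 := by
    intro j
    refine abs_le_of_sq_le_sq ?_ (by positivity)
    have g0 := sq_nonneg ((c.Y (.V 0) (T.cmp r f) : C(P, ℝ)) p)
    have g1 := sq_nonneg ((c.Y (.V 1) (T.cmp r f) : C(P, ℝ)) p)
    fin_cases j
    · simp only [Fin.zero_eta]; linarith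
    · simp only [Fin.mk_one]; linarith
  have hDu : ∀ j : Fin 2, |Du c U j (T.cmp r f) p| ≤ d := by
    intro j
    refine abs_le_of_sq_le_sq ?_ hd0
    have g0 := sq_nonneg (Du c U 0 (T.cmp r f) p)
    have g1 := sq_nonneg (Du c U 1 (T.cmp r f) p)
    fin_cases j
    · simp only [Fin.zero_eta]; linarith
    · simp only [Fin.mk_one]; linarith
  have hUu : ∀ i j, |U i j p| ≤ u := by
    intro i j
    have n1 := norm_nonneg (U 0 0)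
    have n2 := norm_nonneg (U 0 1)
    have n3 := norm_nonneg (U 1 1)
    have := bdd (U i j) p
    fin_cases i <;> fin_cases j <;>
      simp only [Fin.zero_eta, Fin.mk_one, Fin.isValue, hs] at this ⊢ <;>
      linarith
  have hH : ∀ j : Fin 2, |(c.Y (.H j) (T.cmp r f) : C(P, ℝ)) p| ≤ d + 2 * (u * (E * B0)) := by
    intro j
    have e1 : (c.Y (.H j) (T.cmp r f) : C(P, ℝ)) p = Du c U j (T.cmp r f) p -
        (U j 0 p * (c.Y (.V 0) (T.cmp r f) : C(P, ℝ)) p +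
          U j 1 p * (c.Y (.V 1) (T.cmp r f) : C(P, ℝ)) p) := by
      rw [Du, Fin.sum_univ_two]; ring
    rw [e1]
    have t1 : |U j 0 p * (c.Y (.V 0) (T.cmp r f) : C(P, ℝ)) p| ≤ u * (E * B0) := by
      rw [abs_mul]
      exact mul_le_mul (hUu j 0) (hV 0) (abs_nonneg _) hu0
    have t2 : |U j 1 p * (c.Y (.V 1) (T.cmp r f) : C(P, ℝ)) p| ≤ u * (E * B0) := by
      rw [abs_mul]
      exact mul_le_mul (hUu j 1) (hV 1) (abs_nonneg _) hu0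
    have t3 := abs_sub (Du c U j (T.cmp r f) p)
      (U j 0 p * (c.Y (.V 0) (T.cmp r f) : C(P, ℝ)) p +
        U j 1 p * (c.Y (.V 1) (T.cmp r f) : C(P, ℝ)) p)
    have t4 := abs_add_le (U j 0 p * (c.Y (.V 0) (T.cmp r f) : C(P, ℝ)) p)
      (U j 1 p * (c.Y (.V 1) (T.cmp r f) : C(P, ℝ)) p)
    linarith [hDu j]
  have p1 : 0 ≤ B0 * E := by positivity
  have p2 : d ≤ d * E := le_mul_of_one_le_right hd0 hE1
  have p3 : 0 ≤ u * B0 * E := by positivity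
  have p4 : cX ≤ cX * E := le_mul_of_one_le_right hcX0 hE1
  have p5 : cR ≤ cR * E := le_mul_of_one_le_right hcR0 hE1
  have hgoal : (B0 + d + 2 * u * B0 + cX + cR) * E =
      B0 * E + d * E + 2 * (u * B0 * E) + cX * E + cR * E := by ring
  rw [hgoal]
  match k with
  | .X =>
    rw [T.X_cmp, T.cmp_apply]
    have h2 := bdd (c.Y .X f : C(P, ℝ)) (ψ .X r p)
    linarith
  | .R =>
    rw [T.R_cmp hRX]
    have h2 := bdd (c.Y .R f : C(P, ℝ)) (ψ .X r p)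
    linarith
  | .V i =>
    have h2 := hV i
    have : E * B0 = B0 * E := mul_comm _ _
    linarith
  | .H i =>
    have h2 := hH i
    have : 2 * (u * (E * B0)) = 2 * (u * B0 * E) := by ring
    linarith

end Vale.Agent.P207.Q.H791
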