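import Vale.Agent.P207.Q.H791.RicW
import Vale.Agent.P207.Q.H183.JU4

/-!
# P207: the unstable solution as a `C¹` jet, with variable rates
-/

open MeasureTheory Filter Topology Set
open scoped Matrix.Norms.L2Operator RealInnerProductSpace

set_option linter.unusedSectionVars false

noncomputable section

namespace Vale.Agent.P207.Q.H791

open Vale.Agent.P207.Q.H413 Vale.Agent.P207.Q.Ric Vale.Agent.P207.Q.H183

variable {P : Type*} [TopologicalSpace P] [CompactSpace P] [FirstCountableTopology P]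
  [MeasurableSpace P] [BorelSpace P] {m : Measure P} [IsFiniteMeasure m] {c : Cal (intL m)}

/-- The hypotheses on the curvature matrix, without pinching. -/
structure KBase (F : FlowS c) (K : Fin 2 → Fin 2 → c.S) (lam Λ κ C : ℝ) : Prop where
  lam_pos : 0 < lam
  le : lam ≤ Λ
  κ0 : 0 ≤ κ
  κ_lt : κ < 2 * Λ
  C0 : 0 ≤ C
  sym : K 1 0 = K 0 1
  lower : ∀ p (x y : ℝ), lam ^ 2 * (x ^ 2 + y ^ 2) ≤
    (K 0 0 : C(P, ℝ)) p * x ^ 2 + 2 * (K 0 1 : C(P, ℝ)) p * (x * y) + (K 1 1 : C(P, ℝ)) p * y ^ 2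
  upper : ∀ p (x y : ℝ), (K 0 0 : C(P, ℝ)) p * x ^ 2 + 2 * (K 0 1 : C(P, ℝ)) p * (x * y)
    + (K 1 1 : C(P, ℝ)) p * y ^ 2 ≤ Λ ^ 2 * (x ^ 2 + y ^ 2)
  R00 : c.Y .R (K 0 0) = 2 * K 0 1
  R01 : c.Y .R (K 0 1) = K 1 1 - K 0 0
  R11 : c.Y .R (K 1 1) = - 2 * K 0 1
  R_pull : ∀ r i j, c.Y .R (F.pull r (K i j)) = F.pull r (c.Y .R (K i j))
  growth : ∀ k i j r p, |((c.Y k (F.pull r (K i j)) : c.S) : C(P, ℝ)) p| ≤
    C * Real.exp (κ * |r|)

variable {F : FlowS c} {K : Fin 2 → Fin 2 → c.S} {lam Λ κ C C' : ℝ}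

theorem hypN0 (h : KBase F K lam Λ κ C) : HypN lam Λ (NK F K Λ) where
  lam_pos := h.lam_pos
  le := h.le
  cont := by
    refine continuous_M2 fun i j => ?_
    refine continuous_const.sub ?_
    exact (K i j : C(P, ℝ)).continuous.comp
      (F.cont.comp (continuous_snd.prodMk continuous_fst))
  bound := fun p r => by
    have h1 := h.lam_pos
    have h2 := h.le
    refine norm_M2_le ?_ (by nlinarith) fun x y => ?_
    · simp [h.sym]
    · have l := h.lower (F.φ r p) x y
      have u := h.upper (F.φ r p) x y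
      have e : qf x y (NK F K Λ p r) = Λ ^ 2 * (x ^ 2 + y ^ 2) -
          ((K 0 0 : C(P, ℝ)) (F.φ r p) * x ^ 2 + 2 * (K 0 1 : C(P, ℝ)) (F.φ r p) * (x * y)
            + (K 1 1 : C(P, ℝ)) (F.φ r p) * y ^ 2) := by
        simp only [qf, NK_apply, h.sym]
        simp
        ring
      rw [e, abs_of_nonneg (by linarith)]
      linarith

theorem exists_hypC (h : KBase F K lam Λ κ C) : ∃ C', ∀ k, HypC Λ κ C' (MK F K k) := by
  obtain ⟨b, hb, hb'⟩ := exists_norm_le
  refine ⟨b * C, fun k => ⟨h.κ0, h.κ_lt, mul_nonneg hb h.C0, ?_, fun p r => ?_⟩⟩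
  · refine continuous_M2 fun i j => ?_
    refine Continuous.neg ?_
    exact (F.contY k (K i j)).comp (continuous_snd.prodMk continuous_fst)
  · rw [mul_assoc]
    refine hb' _ _ (mul_nonneg h.C0 (Real.exp_pos _).le) fun i j => ?_
    rw [MK_apply, abs_neg]
    exact h.growth k i j r p

/-! ### the continuous unstable solution -/

/-- the unstable solution -/
def U0 (h : KBase F K lam Λ κ C) (i j : Fin 2) : C(P, ℝ) :=
  algebraMap ℝ C(P, ℝ) (if i = j then Λ else 0) -
    cm (fun p r => Ric.T Λ (NK F K Λ) p r i j) (cont_ent (T_cont (hypN0 h)) i j) 0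

theorem U0_apply (h : KBase F K lam Λ κ C) (i j : Fin 2) (p : P) :
    U0 h i j p = (if i = j then Λ else 0) - Ric.T Λ (NK F K Λ) p 0 i j := rfl

theorem U0_flow (h : KBase F K lam Λ κ C) (i j : Fin 2) (p : P) (r : ℝ) :
    U0 h i j (F.φ r p) = (if i = j then Λ else 0) - Ric.T Λ (NK F K Λ) p r i j := by
  rw [U0_apply, T_flow (hypN0 h) (φ := F.φ) (fun p t r => NK_flow p t r) p r 0, zero_add]

theorem NK0_symm (h : KBase F K lam Λ κ C) (p : P) (r : ℝ) :
    NK F K Λ p r 1 0 = NK F K Λ p r 0 1 := by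
  simp [h.sym]

theorem MK0_symm (h : KBase F K lam Λ κ C) (k : Idx) (p : P) (r : ℝ) :
    MK F K k p r 1 0 = MK F K k p r 0 1 := by
  simp [h.sym]

theorem T0_symm (h : KBase F K lam Λ κ C) (p : P) (s : ℝ) :
    Ric.T Λ (NK F K Λ) p s 1 0 = Ric.T Λ (NK F K Λ) p s 0 1 :=
  T_symm (hypN0 h) (fun p r => NK0_symm h p r) p s

theorem U0_symm (h : KBase F K lam Λ κ C) : U0 h 1 0 = U0 h 0 1 := by
  ext p; rw [U0_apply, U0_apply, T0_symm h]; simp

theorem U0_deriv (h : KBase F K lam Λ κ C) (i j : Fin 2) (p : P) (r : ℝ) :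
    HasDerivAt (fun r => U0 h i j (F.φ r p))
      ((K i j : C(P, ℝ)) (F.φ r p) - ∑ k, U0 h i k (F.φ r p) * U0 h k j (F.φ r p)) r := by
  have h1 := (ent i j).hasFDerivAt.comp_hasDerivAt r (hasDerivAt_T (hypN0 h) p r)
  have h2 := (hasDerivAt_const r (if i = j then Λ else 0)).sub h1
  have h3 : (fun r => U0 h i j (F.φ r p)) = fun r => (if i = j then Λ else 0) -
      (ent i j ∘ Ric.T Λ (NK F K Λ) p) r := by
    funext r
    rw [U0_flow]; rfl
  rw [h3]
  refine h2.congr_deriv ?_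
  simp only [U0_flow, ent_apply, Matrix.add_apply, Matrix.sub_apply, Matrix.smul_apply,
    Matrix.mul_apply, Fin.sum_univ_two, NK_apply, smul_eq_mul]
  fin_cases i <;> fin_cases j <;> simp <;> ring

theorem U0_lower (h : KBase F K lam Λ κ C) (p : P) (x y : ℝ) : lam * (x ^ 2 + y ^ 2) ≤
    U0 h 0 0 p * x ^ 2 + 2 * U0 h 0 1 p * (x * y) + U0 h 1 1 p * y ^ 2 := by
  have hN := hypN0 h
  have h1 := (abs_le.1 (qf_le_norm (Ric.T Λ (NK F K Λ) p 0) x y)).2
  have h2 := T_le hN p 0
  have h3 : ‖Ric.T Λ (NK F K Λ) p 0‖ * (x ^ 2 + y ^ 2) ≤ (Λ - lam) * (x ^ 2 + y ^ 2) :=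
    mul_le_mul_of_nonneg_right h2 (by positivity)
  rw [U0_apply, U0_apply, U0_apply]
  simp only [qf, T0_symm h] at h1
  simp
  nlinarith

theorem U0_upper (h : KBase F K lam Λ κ C) (p : P) (x y : ℝ) :
    U0 h 0 0 p * x ^ 2 + 2 * U0 h 0 1 p * (x * y) + U0 h 1 1 p * y ^ 2 ≤
      Λ * (x ^ 2 + y ^ 2) := by
  have hN := hypN0 h
  have h1 := T_nonneg hN (fun p r => NK0_symm h p r) (fun p r x y => ?_) p 0 x y
  · rw [U0_apply, U0_apply, U0_apply]
    simp only [qf, T0_symm h] at h1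
    simp
    nlinarith
  · have u := h.upper (F.φ r p) x y
    simp only [qf, NK_apply, h.sym]
    simp
    nlinarith

/-! ### the iterates are jets -/

section Alg

variable {Θ : Type*} [TopologicalSpace Θ] [FirstCountableTopology Θ] {N M : Θ → ℝ → M2}

theorem clm_Skc (hN : HypN lam Λ N) (hM : HypC Λ κ C' M) {B : Type*} [NormedRing B]
    [NormedAlgebra ℝ B] [CompleteSpace B] (l : M2 →L[ℝ] B) (k : ℕ) (θ : Θ) (s : ℝ) :
    l (Sk Λ N M (k + 1) θ s) = L Λ (fun θ r => l (Gk Λ N M k θ r)) θ s :=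
  clm_L (G := Gk Λ N M k) l hM.κ0 hM.κ_lt (Gc_nonneg hN hM k) (Gk_cont' hN hM k θ)
    (Gk_bd hN hM k θ) s

theorem Skc_symm (hN : HypN lam Λ N) (hM : HypC Λ κ C' M) (hs : ∀ θ r, N θ r 1 0 = N θ r 0 1)
    (hs' : ∀ θ r, M θ r 1 0 = M θ r 0 1) (k : ℕ) :
    ∀ θ s, Sk Λ N M k θ s 1 0 = Sk Λ N M k θ s 0 1 := by
  induction k with
  | zero => intro θ s; simp [Sk]
  | succ k ih =>
    intro θ s
    have h1 := clm_Skc hN hM (ent 1 0) k θ s
    have h2 := clm_Skc hN hM (ent 0 1) k θ s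
    simp only [ent_apply] at h1 h2
    rw [h1, h2]
    congr 1
    funext θ r
    simp only [Gk, Matrix.add_apply, Matrix.mul_apply, Fin.sum_univ_two, hs', ih, Tk_symm hN hs k]
    ring

theorem Skc_rot (hN : HypN lam Λ N) (hM : HypC Λ κ C' M)
    (hR : ∀ θ r, M θ r = adJ (N θ r)) (k : ℕ) :
    ∀ θ s, Sk Λ N M k θ s = adJ (Tk Λ N k θ s) := by
  induction k with
  | zero => intro θ s; simp [Sk, Tk]
  | succ k ih =>
    intro θ s
    have h1 := clm_Skc hN hM (ContinuousLinearMap.id ℝ M2) k θ s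
    have h2 := clm_Tk hN adJ k θ s
    simp only [ContinuousLinearMap.id_apply] at h1
    rw [h1, h2]
    congr 1
    funext θ r
    rw [Gk, ih, hR, adJ_apply, adJ_apply, adJ_apply]
    noncomm_ring

end Alg

/-- the jet of `N` -/
theorem jetN0 (hN : HypN lam Λ (NK F K Λ)) (hM : ∀ k, HypC Λ κ C' (MK F K k)) (i j : Fin 2)
    (r : ℝ) : Jet c (cm (fun p r => NK F K Λ p r i j) (cont_ent hN.cont i j) r)
      (fun k => cm (fun p r => MK F K k p r i j) (cont_ent (hM k).cont i j) r) := by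
  have h := Jet.of_mem (c := c) (algebraMap ℝ c.S (if i = j then Λ ^ 2 else 0) - F.pull r (K i j))
  refine h.congr ?_ fun k => ?_
  · ext p
    simp [F.pull_apply]
  · ext p
    simp

/-- The iterates are jets. -/
theorem jet_Tkc (hN : HypN lam Λ (NK F K Λ)) (hM : ∀ k, HypC Λ κ C' (MK F K k)) (n : ℕ) :
    ∀ (i j : Fin 2) (s : ℝ),
      Jet c (cm (fun p r => Tk Λ (NK F K Λ) n p r i j) (cont_ent (Tk_cont hN n) i j) s)
        (fun k => cm (fun p r => Sk Λ (NK F K Λ) (MK F K k) n p r i j)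
          (cont_ent (Skc_cont hN (hM k) n) i j) s) := by
  induction n with
  | zero =>
    intro i j s
    refine (jet_zero c).congr ?_ fun k => ?_
    · ext p; simp [Tk]
    · ext p; simp [Sk]
  | succ n ih =>
    intro i j s
    have hκ := (hM .X).κ0
    have hlt := (hM .X).κ_lt
    -- the integrand
    have hG := cont_ent (Tk_G hN n) i j
    have hD := fun k => cont_ent (Gk_cont hN (hM k) n) i j
    set B : ℝ := ‖ent i j‖ * ((Λ ^ 2 - lam ^ 2) + (Λ - lam) * (Λ - lam)) +
      ‖ent i j‖ * Gc lam Λ κ C' n with hB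
    have hB1 : 0 ≤ ‖ent i j‖ * ((Λ ^ 2 - lam ^ 2) + (Λ - lam) * (Λ - lam)) :=
      mul_nonneg (ContinuousLinearMap.opNorm_nonneg _) (Tk_B0 hN)
    have hB2 : 0 ≤ ‖ent i j‖ * Gc lam Λ κ C' n :=
      mul_nonneg (ContinuousLinearMap.opNorm_nonneg _) (Gc_nonneg hN (hM .X) n)
    have hGb : ∀ p r, |(NK F K Λ p r + Tk Λ (NK F K Λ) n p r * Tk Λ (NK F K Λ) n p r) i j| ≤
        B * Real.exp (κ * |r|) := by
      intro p r
      refine (ent_le i j (Tk_bd hN n p r)).trans ?_
      rw [zero_mul, Real.exp_zero, mul_one]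
      have h1 : (1 : ℝ) ≤ Real.exp (κ * |r|) := Real.one_le_exp (by positivity)
      calc _ ≤ B := by rw [hB]; linarith
        _ ≤ B * Real.exp (κ * |r|) := le_mul_of_one_le_right (by positivity) h1
    have hDb : ∀ k p r, |Gk Λ (NK F K Λ) (MK F K k) n p r i j| ≤ B * Real.exp (κ * |r|) := by
      intro k p r
      refine (ent_le i j (Gk_bd hN (hM k) n p r)).trans ?_
      rw [← mul_assoc]
      refine mul_le_mul_of_nonneg_right ?_ (Real.exp_pos _).le
      rw [hB]; linarith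
    have eT : (fun p s => Tk Λ (NK F K Λ) (n + 1) p s i j) = L Λ (fun p r =>
        (NK F K Λ p r + Tk Λ (NK F K Λ) n p r * Tk Λ (NK F K Λ) n p r) i j) := by
      funext p s
      have := clm_Tk hN (ent i j) n p s
      simpa only [ent_apply] using this
    have eS : ∀ k, (fun p s => Sk Λ (NK F K Λ) (MK F K k) (n + 1) p s i j) = L Λ (fun p r =>
        Gk Λ (NK F K Λ) (MK F K k) n p r i j) := by
      intro k
      funext p s
      have := clm_Skc hN (hM k) (ent i j) n p s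
      simpa only [ent_apply] using this
    have hLG := cont_ent (Tk_cont hN (n + 1)) i j
    have hLD := fun k => cont_ent (Skc_cont hN (hM k) (n + 1)) i j
    rw [eT] at hLG
    have hLD' : ∀ k, Continuous (Function.uncurry (L Λ (fun p r =>
        Gk Λ (NK F K Λ) (MK F K k) n p r i j))) := by
      intro k
      have := hLD k
      rwa [eS k] at this
    have key := jet_L (c := c) (Λ := Λ) hκ hlt (B := B) (by positivity) hG hGb hD hDb
      (fun r => ?_) hLG hLD' s
    · refine key.congr ?_ fun k => ?_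
      · ext p
        exact (congrFun (congrFun eT p) s).symm
      · ext p
        exact (congrFun (congrFun (eS k) p) s).symm
    · -- the integrand is a jet
      have hj := (jetN0 hN hM i j r).add
        (((ih i 0 r).mul (ih 0 j r)).add ((ih i 1 r).mul (ih 1 j r)))
      refine hj.congr ?_ fun k => ?_
      · ext p
        simp only [ContinuousMap.add_apply, ContinuousMap.mul_apply, cm_apply, Matrix.add_apply,
          Matrix.mul_apply, Fin.sum_univ_two]
      · ext p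
        simp only [Gk, ContinuousMap.add_apply, ContinuousMap.mul_apply, cm_apply,
          Matrix.add_apply, Matrix.mul_apply, Fin.sum_univ_two]
        ring

/-- **Existence of the unstable solution as a `C¹` jet**, with variable rates. -/
theorem exists_USolW (h : KBase F K lam Λ κ C) {δ C₁ w : ℝ} {a W W' : P → ℝ → ℝ} (hC₁ : 0 ≤ C₁)
    (hW : ∀ k, HypW lam Λ δ C₁ (NK F K Λ) (MK F K k) a W W') (hw : ∀ p, W p 0 ≤ w) :
    ∃ D : USol F K lam Λ, ∀ i j, D.U i j = U0 h i j := by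
  have hN := hypN0 h
  obtain ⟨C', hM⟩ := exists_hypC h
  -- continuity of the derivative at time `0`
  have hSc : ∀ k, Continuous fun p => Ric.S Λ (NK F K Λ) (MK F K k) p 0 := by
    intro k
    obtain ⟨e, he, he0, hd⟩ := SkW_dist hN (hM k) (hW k) hC₁ hw
    have hu : TendstoUniformly (fun n p => Sk Λ (NK F K Λ) (MK F K k) n p 0)
        (fun p => Ric.S Λ (NK F K Λ) (MK F K k) p 0) atTop := by
      rw [Metric.tendstoUniformly_iff]
      intro ε hε
      filter_upwards [he.eventually_lt_const hε] with n hn p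
      rw [dist_comm, dist_eq_norm]
      exact (hd n p).trans_lt hn
    exact hu.continuous (Frequently.of_forall fun n =>
      (Skc_cont hN (hM k) n).comp (continuous_id.prodMk continuous_const))
  let S0 : Fin 2 → Fin 2 → Idx → C(P, ℝ) := fun i j k =>
    ⟨fun p => Ric.S Λ (NK F K Λ) (MK F K k) p 0 i j, (ent i j).continuous.comp (hSc k)⟩
  have hS0 : ∀ i j k p, S0 i j k p = Ric.S Λ (NK F K Λ) (MK F K k) p 0 i j :=
    fun i j k p => rfl
  let dU : Fin 2 → Fin 2 → Idx → C(P, ℝ) := fun i j k => - S0 i j k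
  have hdU : ∀ i j k p, dU i j k p = - Ric.S Λ (NK F K Λ) (MK F K k) p 0 i j :=
    fun i j k p => rfl
  -- the jet of `T`
  have jT : ∀ i j, Jet c (cm (fun p r => Ric.T Λ (NK F K Λ) p r i j)
      (cont_ent (T_cont hN) i j) 0) (fun k => S0 i j k) := by
    intro i j
    refine jet_of_tendsto (fun n => jet_Tkc hN hM n i j 0) ?_ fun k => ?_
    · have h1 : Tendsto (fun n : ℕ => ‖ent i j‖ * ((Λ - lam) * ((Λ - lam) / Λ) ^ n /
          (1 - (Λ - lam) / Λ))) atTop
          (𝓝 (‖ent i j‖ * ((Λ - lam) * 0 / (1 - (Λ - lam) / Λ)))) :=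
        ((((tendsto_pow_atTop_nhds_zero_of_lt_one (q_nonneg hN) (q_lt_one hN)).const_mul
          _).div_const _)).const_mul _
      rw [mul_zero, zero_div, mul_zero] at h1
      refine cm_tendsto _ _ h1 (fun n => ?_) fun n p => ?_
      · have h2 := q_nonneg hN
        have h3 := q_lt_one hN
        have h4 : 0 ≤ Λ - lam := sub_nonneg.2 hN.le
        have h5 : 0 < 1 - (Λ - lam) / Λ := by linarith
        positivity
      · have := Tk_dist_le hN n p 0
        rw [dist_eq_norm] at this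
        exact ent_le i j this
    · obtain ⟨e, he, he0, hd⟩ := SkW_dist hN (hM k) (hW k) hC₁ hw
      rw [tendsto_iff_norm_sub_tendsto_zero]
      have h1 := he.const_mul ‖ent i j‖
      rw [mul_zero] at h1
      refine squeeze_zero (fun n => norm_nonneg _) (fun n => ?_) h1
      rw [ContinuousMap.norm_le _ (mul_nonneg (ContinuousLinearMap.opNorm_nonneg _) (he0 n))]
      exact fun p => ent_le i j (hd n p)
  have jU : ∀ i j, Jet c (U0 h i j) (dU i j) := by
    intro i j
    have h1 := (Jet.of_mem (c := c) (algebraMap ℝ c.S (if i = j then Λ else 0))).sub (jT i j)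
    refine h1.congr rfl fun k => ?_
    ext p
    simp [dU]
  have hSs : ∀ k p, Ric.S Λ (NK F K Λ) (MK F K k) p 0 1 0 =
      Ric.S Λ (NK F K Λ) (MK F K k) p 0 0 1 := by
    intro k p
    have ht := SkW_tendsto hN (hM k) (hW k) hC₁ p le_rfl
    have h1 := ((ent 1 0).continuous.tendsto _).comp ht
    have h2 := ((ent 0 1).continuous.tendsto _).comp ht
    exact tendsto_nhds_unique h1 (h2.congr fun n =>
      (Skc_symm hN (hM k) (fun p r => NK0_symm h p r) (fun p r => MK0_symm h k p r) n p 0).symm)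
  have hMR : ∀ p r, MK F K .R p r = adJ (NK F K Λ p r) := by
    intro p r
    have e00 : ((c.Y .R (F.pull r (K 0 0)) : c.S) : C(P, ℝ)) p =
        2 * (K 0 1 : C(P, ℝ)) (F.φ r p) := by
      rw [h.R_pull, F.pull_apply, h.R00, two_smul_apply]
    have e01 : ((c.Y .R (F.pull r (K 0 1)) : c.S) : C(P, ℝ)) p =
        (K 1 1 : C(P, ℝ)) (F.φ r p) - (K 0 0 : C(P, ℝ)) (F.φ r p) := by
      rw [h.R_pull, F.pull_apply, h.R01]; simp
    have e11 : ((c.Y .R (F.pull r (K 1 1)) : c.S) : C(P, ℝ)) p =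
        - (2 * (K 0 1 : C(P, ℝ)) (F.φ r p)) := by
      rw [h.R_pull, F.pull_apply, h.R11, neg_mul, Subalgebra.coe_neg, ContinuousMap.neg_apply,
        two_smul_apply]
    obtain ⟨a00, a01, a10, a11⟩ := adJ_entries (NK F K Λ p r)
    have b : ∀ i j, NK F K Λ p r i j = (if i = j then Λ ^ 2 else 0) -
      (K i j : C(P, ℝ)) (F.φ r p) := fun i j => rfl
    ext i j
    rw [MK_apply]
    fin_cases i <;> fin_cases j
    · simp only [Fin.zero_eta, Fin.isValue]
      rw [e00, a00, b, b, h.sym]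
      simp; ring
    · simp only [Fin.zero_eta, Fin.isValue, Fin.mk_one]
      rw [e01, a01, b, b]
      simp
    · simp only [Fin.zero_eta, Fin.isValue, Fin.mk_one]
      rw [h.sym, e01, a10, b, b]
      simp
    · simp only [Fin.isValue, Fin.mk_one]
      rw [e11, a11, b, b, h.sym]
      simp; ring
  have hSR : ∀ p, Ric.S Λ (NK F K Λ) (MK F K .R) p 0 = adJ (Ric.T Λ (NK F K Λ) p 0) := by
    intro p
    have h1 := (adJ.continuous.tendsto _).comp (Tk_tendsto hN p 0)
    exact tendsto_nhds_unique (SkW_tendsto hN (hM .R) (hW .R) hC₁ p le_rfl)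
      (h1.congr fun n => (Skc_rot hN (hM .R) hMR n p 0).symm)
  have hTs := T0_symm h
  refine ⟨⟨U0 h, dU, jU, U0_symm h, ?_, ?_, ?_, ?_, ?_, U0_lower h, U0_upper h, U0_deriv h⟩,
    fun i j => rfl⟩
  · intro k; ext p
    rw [hdU, hdU, hSs]
  · intro i j; ext p
    have h1 := jet_hasDerivAt F (jU i j) p 0
    have h2 := U0_deriv h i j p 0
    have h3 := h1.unique h2
    simp only [F.zero] at h3
    rw [h3]
    simp
  · ext p
    have h2 : (2 * U0 h 0 1 : C(P, ℝ)) p = 2 * U0 h 0 1 p := rfl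
    rw [hdU, hSR, (adJ_entries _).1, h2, U0_apply, hTs]
    simp; ring
  · ext p
    rw [hdU, hSR, (adJ_entries _).2.1, ContinuousMap.sub_apply, U0_apply, U0_apply]
    simp
  · ext p
    have h2 : (-2 * U0 h 0 1 : C(P, ℝ)) p = -2 * U0 h 0 1 p := rfl
    rw [hdU, hSR, (adJ_entries _).2.2.2, h2, U0_apply, hTs]
    simp; ring

end Vale.Agent.P207.Q.H791
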