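import Mathlib

/-!
# P207: the maximum principle for the traceless part of the unstable solution, and the weight
-/

open scoped Topology
open Set Filter

set_option linter.unusedSectionVars false

noncomputable section

namespace Vale.Agent.P207.Q.H791

/-- the traceless part, squared -/
def bb (u v w : ℝ) : ℝ := ((u - w) / 2) ^ 2 + v ^ 2

theorem bb_nonneg (u v w : ℝ) : 0 ≤ bb u v w := by unfold bb; positivity

/-- the part of the quadratic form coming from the traceless part -/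
theorem quad_abs (u v w x y : ℝ) :
    |(u * x ^ 2 + 2 * v * (x * y) + w * y ^ 2) - (u + w) / 2 * (x ^ 2 + y ^ 2)| ≤
      Real.sqrt (bb u v w) * (x ^ 2 + y ^ 2) := by
  have h1 : (u * x ^ 2 + 2 * v * (x * y) + w * y ^ 2) - (u + w) / 2 * (x ^ 2 + y ^ 2) =
      (u - w) / 2 * (x ^ 2 - y ^ 2) + v * (2 * (x * y)) := by ring
  rw [h1]
  refine abs_le_of_sq_le_sq ?_ (by positivity)
  rw [mul_pow, Real.sq_sqrt (bb_nonneg _ _ _), bb]
  nlinarith [sq_nonneg ((u - w) / 2 * (2 * (x * y)) - v * (x ^ 2 - y ^ 2))]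

theorem quad_upper (u v w x y : ℝ) : u * x ^ 2 + 2 * v * (x * y) + w * y ^ 2 ≤
    ((u + w) / 2 + Real.sqrt (bb u v w)) * (x ^ 2 + y ^ 2) := by
  have := (abs_le.1 (quad_abs u v w x y)).2
  linarith

theorem quad_lower (u v w x y : ℝ) : ((u + w) / 2 - Real.sqrt (bb u v w)) * (x ^ 2 + y ^ 2) ≤
    u * x ^ 2 + 2 * v * (x * y) + w * y ^ 2 := by
  have := (abs_le.1 (quad_abs u v w x y)).1
  linarith

/-- the quadratic form lower bound gives the eigenvalue bound -/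
theorem sqrt_le_of_lower {u v w l : ℝ}
    (h : ∀ x y : ℝ, l * (x ^ 2 + y ^ 2) ≤ u * x ^ 2 + 2 * v * (x * y) + w * y ^ 2) :
    Real.sqrt (bb u v w) ≤ (u + w) / 2 - l := by
  have d1 : discrim (u - l) (2 * v) (w - l) ≤ 0 :=
    discrim_le_zero fun x => by nlinarith [h x 1]
  rw [discrim] at d1
  have t1 : 0 ≤ (u + w) / 2 - l := by nlinarith [h 1 0, h 0 1]
  rw [Real.sqrt_le_left t1, bb]
  nlinarith

theorem sqrt_le_of_upper {u v w L : ℝ}
    (h : ∀ x y : ℝ, u * x ^ 2 + 2 * v * (x * y) + w * y ^ 2 ≤ L * (x ^ 2 + y ^ 2)) :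
    Real.sqrt (bb u v w) ≤ L - (u + w) / 2 := by
  have d2 : discrim (L - u) (-2 * v) (L - w) ≤ 0 :=
    discrim_le_zero fun x => by nlinarith [h x 1]
  rw [discrim] at d2
  have t1 : 0 ≤ L - (u + w) / 2 := by nlinarith [h 1 0, h 0 1]
  rw [Real.sqrt_le_left t1, bb]
  nlinarith

/-- the inequality of the weight, normalized -/
theorem weight_norm {y κ z : ℝ} (hy0 : 0 ≤ y) (hy : y ≤ 7 / 34) (hκ : 0 ≤ κ)
    (hz : z ≤ y * (7 / 34) * κ) :
    1 / 10 ≤ 245 / 1156 * (κ - 1 / 2 - 2 * y ^ 2) -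
      10 * (2 * z - 2 * y ^ 2 - 2 * y ^ 2 * (κ - 1 / 2 - 2 * y ^ 2)) -
      (1 / 2 + y) + 2 * (1 / 2 - y) := by
  have h1 : 0 ≤ κ * (y - 7 / 68) ^ 2 := by positivity
  have h2 : 0 ≤ y ^ 2 * (49 / 1156 - y ^ 2) := by
    refine mul_nonneg (sq_nonneg y) ?_
    nlinarith
  have h3 := sq_nonneg (y - 19 / 100)
  nlinarith

/-- the inequality of the weight -/
theorem weight_ineq {t B k0 kb : ℝ} (ht : 0 < t) (hB0 : 0 ≤ B) (hB : B ≤ 7 / 34 * t)
    (hk0 : 0 ≤ k0) (hkb : kb ≤ B * (7 / 34) * k0) :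
    t / 10 ≤ 245 / 1156 * ((k0 - t ^ 2 / 2 - 2 * B ^ 2) / t) -
      10 * (((2 * kb - 2 * t * B ^ 2) * t ^ 2 - B ^ 2 * (2 * t * (k0 - t ^ 2 / 2 - 2 * B ^ 2)))
        / (t ^ 2) ^ 2) - (t / 2 + B) + 2 * (t / 2 - B) := by
  obtain ⟨y, rfl⟩ : ∃ y, B = y * t := ⟨B / t, by field_simp⟩
  obtain ⟨κ, rfl⟩ : ∃ κ, k0 = κ * t ^ 2 := ⟨k0 / t ^ 2, by field_simp⟩
  obtain ⟨z, rfl⟩ : ∃ z, kb = z * t ^ 3 := ⟨kb / t ^ 3, by field_simp⟩
  have hy0 : 0 ≤ y := by
    by_contra h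
    push Not at h
    nlinarith
  have hy : y ≤ 7 / 34 := le_of_mul_le_mul_right hB ht
  have hκ : 0 ≤ κ := by
    by_contra h
    push Not at h
    have : 0 < t ^ 2 := by positivity
    nlinarith
  have hz : z ≤ y * (7 / 34) * κ := by
    have : 0 < t ^ 3 := by positivity
    refine le_of_mul_le_mul_right ?_ this
    linarith
  have h := weight_norm hy0 hy hκ hz
  have h2 := mul_le_mul_of_nonneg_right h ht.le
  refine le_trans (le_of_eq ?_) (h2.trans (le_of_eq ?_))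
  · ring
  · field_simp

section Flow

variable {P : Type*} [TopologicalSpace P] [CompactSpace P] {φ : ℝ → P → P}
  {u v w k1 k2 k3 : C(P, ℝ)} {l : ℝ}

/-- the Riccati equation in components -/
structure RicC (φ : ℝ → P → P) (u v w k1 k2 k3 : C(P, ℝ)) : Prop where
  du : ∀ p r, HasDerivAt (fun r => u (φ r p)) (k1 (φ r p) - (u (φ r p) * u (φ r p) +
    v (φ r p) * v (φ r p))) r
  dv : ∀ p r, HasDerivAt (fun r => v (φ r p)) (k2 (φ r p) - (u (φ r p) * v (φ r p) +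
    v (φ r p) * w (φ r p))) r
  dw : ∀ p r, HasDerivAt (fun r => w (φ r p)) (k3 (φ r p) - (v (φ r p) * v (φ r p) +
    w (φ r p) * w (φ r p))) r

/-- the scalar product of the traceless parts -/
def kb (u v w k1 k2 k3 : ℝ) : ℝ := (u - w) / 2 * ((k1 - k3) / 2) + v * k2

theorem kb_le {u v w k1 k2 k3 c : ℝ} (hc : 0 ≤ c) (hk0 : 0 ≤ k1 + k3)
    (hk : bb k1 k2 k3 ≤ c ^ 2 * (k1 + k3) ^ 2) :
    kb u v w k1 k2 k3 ≤ Real.sqrt (bb u v w) * c * (k1 + k3) := by
  have h1 : kb u v w k1 k2 k3 ^ 2 ≤ bb u v w * bb k1 k2 k3 := by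
    unfold kb bb
    nlinarith [sq_nonneg ((u - w) / 2 * k2 - v * ((k1 - k3) / 2))]
  have h2 : kb u v w k1 k2 k3 ^ 2 ≤ (Real.sqrt (bb u v w) * c * (k1 + k3)) ^ 2 := by
    refine h1.trans ?_
    have h3 := mul_le_mul_of_nonneg_left hk (bb_nonneg u v w)
    refine h3.trans (le_of_eq ?_)
    rw [mul_pow, mul_pow, Real.sq_sqrt (bb_nonneg _ _ _)]
    ring
  exact (abs_le.1 (abs_le_of_sq_le_sq h2 (by positivity))).2

theorem RicC.t (h : RicC φ u v w k1 k2 k3) (p : P) (r : ℝ) :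
    HasDerivAt (fun r => u (φ r p) + w (φ r p)) ((k1 (φ r p) + k3 (φ r p)) -
      (u (φ r p) + w (φ r p)) ^ 2 / 2 - 2 * bb (u (φ r p)) (v (φ r p)) (w (φ r p))) r := by
  refine ((h.du p r).fun_add (h.dw p r)).congr_deriv ?_
  unfold bb; ring

theorem RicC.b (h : RicC φ u v w k1 k2 k3) (p : P) (r : ℝ) :
    HasDerivAt (fun r => bb (u (φ r p)) (v (φ r p)) (w (φ r p)))
      (2 * kb (u (φ r p)) (v (φ r p)) (w (φ r p)) (k1 (φ r p)) (k2 (φ r p)) (k3 (φ r p)) -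
        2 * (u (φ r p) + w (φ r p)) * bb (u (φ r p)) (v (φ r p)) (w (φ r p))) r := by
  unfold bb kb
  refine (((((h.du p r).fun_sub (h.dw p r)).div_const 2).fun_pow 2).fun_add
    ((h.dv p r).fun_pow 2)).congr_deriv ?_
  push_cast
  ring

/-- **the maximum principle** -/
theorem bb_le (h : RicC φ u v w k1 k2 k3) (hφ : ∀ p, φ 0 p = p) (hl : 0 < l)
    (hlo : ∀ p (x y : ℝ), l * (x ^ 2 + y ^ 2) ≤ u p * x ^ 2 + 2 * v p * (x * y) + w p * y ^ 2)
    {c : ℝ} (hc : 0 < c) (hk0 : ∀ p, 0 ≤ k1 p + k3 p)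
    (hk : ∀ p, bb (k1 p) (k2 p) (k3 p) ≤ c ^ 2 * (k1 p + k3 p) ^ 2) (p : P) :
    bb (u p) (v p) (w p) ≤ c ^ 2 * (u p + w p) ^ 2 := by
  have ht : ∀ p, 0 < u p + w p := fun p => by
    have h1 := hlo p 1 0
    have h2 := hlo p 0 1
    norm_num at h1 h2
    linarith
  have hcont : Continuous fun p => bb (u p) (v p) (w p) / (u p + w p) ^ 2 := by
    refine Continuous.div ?_ ?_ fun p => (pow_pos (ht p) 2).ne'
    · unfold bb; fun_prop
    · fun_prop
  obtain ⟨q, -, hq⟩ := isCompact_univ.exists_isMaxOn ⟨p, mem_univ p⟩ hcont.continuousOn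
  have hmax : ∀ p, bb (u p) (v p) (w p) / (u p + w p) ^ 2 ≤
      bb (u q) (v q) (w q) / (u q + w q) ^ 2 := fun p => hq (mem_univ p)
  -- it is enough to bound the maximum
  suffices hs : bb (u q) (v q) (w q) ≤ c ^ 2 * (u q + w q) ^ 2 by
    have h1 := hmax p
    have h2 : bb (u q) (v q) (w q) / (u q + w q) ^ 2 ≤ c ^ 2 := by
      rw [div_le_iff₀ (pow_pos (ht q) 2)]; exact hs
    have h3 := h1.trans h2
    rwa [div_le_iff₀ (pow_pos (ht p) 2)] at h3
  by_contra hcon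
  push Not at hcon
  -- the derivative along the flow vanishes
  have hd := (h.b q 0).fun_div ((h.t q 0).fun_pow 2) (pow_pos (ht _) 2).ne'
  have hloc : IsLocalMax (fun r => bb (u (φ r q)) (v (φ r q)) (w (φ r q)) /
      (u (φ r q) + w (φ r q)) ^ 2) 0 := by
    refine Filter.Eventually.of_forall fun r => ?_
    have := hmax (φ r q)
    simp only [hφ]
    exact this
  have hz := hloc.hasDerivAt_eq_zero hd
  simp only [hφ] at hz
  set t := u q + w q with ht'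
  set b := bb (u q) (v q) (w q) with hb
  set k := kb (u q) (v q) (w q) (k1 q) (k2 q) (k3 q) with hkk
  have htp : 0 < t := ht q
  rw [div_eq_zero_iff] at hz
  have hz' : 2 * k * t - t ^ 2 * b - 2 * b * (k1 q + k3 q) + 4 * b ^ 2 = 0 := by
    rcases hz with hz | hz
    · push_cast at hz
      have : t * (2 * k * t - t ^ 2 * b - 2 * b * (k1 q + k3 q) + 4 * b ^ 2) = 0 := by
        linarith
      rcases mul_eq_zero.1 this with h1 | h1
      · exact absurd h1 htp.ne'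
      · exact h1
    · exact absurd hz (by positivity)
  -- the contradiction
  set B := Real.sqrt b with hB
  have hb0 : 0 ≤ b := bb_nonneg _ _ _
  have hB2 : B ^ 2 = b := Real.sq_sqrt hb0
  have hB0 : 0 ≤ B := Real.sqrt_nonneg _
  have hBt : B ≤ t / 2 - l := sqrt_le_of_lower (hlo q)
  have hkbd : k ≤ B * c * (k1 q + k3 q) := kb_le hc.le (hk0 q) (hk q)
  have hBc : c * t < B := by
    by_contra hcc
    push Not at hcc
    have : B ^ 2 ≤ (c * t) ^ 2 := pow_le_pow_left₀ hB0 hcc 2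
    rw [hB2, mul_pow] at this
    linarith
  have hBp : 0 < B := lt_of_le_of_lt (by positivity) hBc
  have e1 : 2 * k * t ≤ 2 * (B * c * (k1 q + k3 q)) * t := by
    have := mul_le_mul_of_nonneg_right hkbd htp.le
    linarith
  have e2 : 0 ≤ 2 * B * (k1 q + k3 q) * (B - c * t) :=
    mul_nonneg (mul_nonneg (by positivity) (hk0 q)) (by linarith)
  have e3 : 0 < B ^ 2 * (t ^ 2 - 4 * B ^ 2) := by
    refine mul_pos (by positivity) ?_
    nlinarith
  rw [← hB2] at hz'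
  nlinarith

end Flow

end Vale.Agent.P207.Q.H791
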