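import Vale.Agent.P207.Q.Ric3

/-!
# The Riccati equation on the whole past: the derivative with variable rates

The iterates `S_k` of the derivative equation, bounded by a weight `W (θ, r)` on the past, where
`W' + 2 a W ≥ δ W` and `a ≤ Λ - ‖T‖`.
-/

open MeasureTheory Set Filter Topology

set_option linter.unusedSectionVars false

noncomputable section

namespace Vale.Agent.P207.Q.Ric

variable {Θ : Type*} {A : Type*} [NormedRing A] [NormedAlgebra ℝ A] [CompleteSpace A]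

/-- Crude hypotheses on `M`. -/
structure HypC [TopologicalSpace Θ] (Λ κ C : ℝ) (M : Θ → ℝ → A) : Prop where
  κ0 : 0 ≤ κ
  κ_lt : κ < 2 * Λ
  C0 : 0 ≤ C
  cont : Continuous (Function.uncurry M)
  bound : ∀ θ r, ‖M θ r‖ ≤ C * Real.exp (κ * |r|)

variable [TopologicalSpace Θ] [FirstCountableTopology Θ] {lam Λ κ C : ℝ} {N M : Θ → ℝ → A}

theorem HypC.cont' (h : HypC Λ κ C M) (θ : Θ) : Continuous (M θ) :=
  h.cont.comp (continuous_const.prodMk continuous_id)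

/-- the crude bound of the iterates -/
def Bc (lam Λ κ C : ℝ) : ℕ → ℝ
  | 0 => 0
  | k + 1 => (C + 2 * (Λ - lam) * Bc lam Λ κ C k) / (2 * Λ - κ)

theorem Bc_nonneg (h : HypN lam Λ N) (hM : HypC Λ κ C M) (k : ℕ) : 0 ≤ Bc lam Λ κ C k := by
  have hle : 0 ≤ Λ - lam := sub_nonneg.2 h.le
  have hd2 : 0 < 2 * Λ - κ := by linarith [hM.κ_lt]
  have hC0 := hM.C0
  induction k with
  | zero => simp [Bc]
  | succ k ih => unfold Bc; positivity

theorem linc_bound (h : HypN lam Λ N) {x t : A} {D w : ℝ}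
    (hx : ‖x‖ ≤ D * w) (ht : ‖t‖ ≤ Λ - lam) : ‖x * t + t * x‖ ≤ 2 * (Λ - lam) * D * w := by
  have hle : 0 ≤ Λ - lam := sub_nonneg.2 h.le
  have hDw : 0 ≤ D * w := (norm_nonneg _).trans hx
  calc ‖x * t + t * x‖ ≤ ‖x‖ * ‖t‖ + ‖t‖ * ‖x‖ :=
        (norm_add_le _ _).trans (add_le_add (norm_mul_le _ _) (norm_mul_le _ _))
    _ ≤ D * w * (Λ - lam) + (Λ - lam) * (D * w) := by gcongr
    _ = _ := by ring

theorem Skc_prop (h : HypN lam Λ N) (hM : HypC Λ κ C M) (k : ℕ) :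
    Continuous (Function.uncurry (Sk Λ N M k)) ∧
      ∀ θ s, ‖Sk Λ N M k θ s‖ ≤ Bc lam Λ κ C k * Real.exp (κ * |s|) := by
  have hΛ := h.Λ_pos
  have hle : 0 ≤ Λ - lam := sub_nonneg.2 h.le
  have hd2 : 0 < 2 * Λ - κ := by linarith [hM.κ_lt]
  have hC0 := hM.C0
  have hB0 := Bc_nonneg h hM
  induction k with
  | zero =>
    refine ⟨continuous_const, fun θ s => ?_⟩
    simp [Sk, Bc]
  | succ k ih =>
    have hb : ∀ θ r, ‖M θ r + (Sk Λ N M k θ r * Tk Λ N k θ r + Tk Λ N k θ r * Sk Λ N M k θ r)‖ ≤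
        (C + 2 * (Λ - lam) * Bc lam Λ κ C k) * Real.exp (κ * |r|) := by
      intro θ r
      refine (norm_add_le _ _).trans ?_
      rw [add_mul]
      exact add_le_add (hM.bound θ r) (linc_bound h (ih.2 θ r) (Tk_le h k θ r))
    have hB : 0 ≤ C + 2 * (Λ - lam) * Bc lam Λ κ C k := by
      have := hB0 k
      positivity
    have hc : Continuous (Function.uncurry fun θ r =>
        M θ r + (Sk Λ N M k θ r * Tk Λ N k θ r + Tk Λ N k θ r * Sk Λ N M k θ r)) :=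
      hM.cont.add ((ih.1.mul (Tk_cont h k)).add ((Tk_cont h k).mul ih.1))
    exact ⟨continuous_L hM.κ0 hM.κ_lt hB hc hb, fun θ s =>
      norm_L_le hM.κ0 hM.κ_lt hB (hb θ) s⟩

theorem Skc_cont (h : HypN lam Λ N) (hM : HypC Λ κ C M) (k : ℕ) :
    Continuous (Function.uncurry (Sk Λ N M k)) := (Skc_prop h hM k).1

theorem Skc_cont' (h : HypN lam Λ N) (hM : HypC Λ κ C M) (k : ℕ) (θ : Θ) :
    Continuous (Sk Λ N M k θ) :=
  (Skc_cont h hM k).comp (continuous_const.prodMk continuous_id)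

theorem Skc_le (h : HypN lam Λ N) (hM : HypC Λ κ C M) (k : ℕ) (θ : Θ) (s : ℝ) :
    ‖Sk Λ N M k θ s‖ ≤ Bc lam Λ κ C k * Real.exp (κ * |s|) := (Skc_prop h hM k).2 θ s

/-- the constant of the integrand -/
def Gc (lam Λ κ C : ℝ) (k : ℕ) : ℝ := C + 2 * (Λ - lam) * Bc lam Λ κ C k

theorem Gc_nonneg (h : HypN lam Λ N) (hM : HypC Λ κ C M) (k : ℕ) : 0 ≤ Gc lam Λ κ C k := by
  have hle : 0 ≤ Λ - lam := sub_nonneg.2 h.le
  have := Bc_nonneg h hM k
  have := hM.C0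
  unfold Gc
  positivity

/-- the integrand of the derivative iteration -/
def Gk (Λ : ℝ) (N M : Θ → ℝ → A) (k : ℕ) (θ : Θ) (r : ℝ) : A :=
  M θ r + (Sk Λ N M k θ r * Tk Λ N k θ r + Tk Λ N k θ r * Sk Λ N M k θ r)

theorem Sk_succ (k : ℕ) : Sk Λ N M (k + 1) = L Λ (Gk Λ N M k) := rfl

theorem Gk_bd (h : HypN lam Λ N) (hM : HypC Λ κ C M) (k : ℕ) (θ : Θ) (r : ℝ) :
    ‖Gk Λ N M k θ r‖ ≤ Gc lam Λ κ C k * Real.exp (κ * |r|) := by
  refine (norm_add_le _ _).trans ?_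
  rw [Gc, add_mul]
  exact add_le_add (hM.bound θ r) (linc_bound h (Skc_le h hM k θ r) (Tk_le h k θ r))

theorem Gk_cont (h : HypN lam Λ N) (hM : HypC Λ κ C M) (k : ℕ) :
    Continuous (Function.uncurry (Gk Λ N M k)) :=
  hM.cont.add (((Skc_cont h hM k).mul (Tk_cont h k)).add ((Tk_cont h k).mul (Skc_cont h hM k)))

theorem Gk_cont' (h : HypN lam Λ N) (hM : HypC Λ κ C M) (k : ℕ) (θ : Θ) :
    Continuous (Gk Λ N M k θ) :=
  (Gk_cont h hM k).comp (continuous_const.prodMk continuous_id)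

/-! ### the weighted bound of `L` -/

/-- a supersolution bounds `L` -/
theorem norm_L_le_W {G : Θ → ℝ → A} {θ : Θ} {w w' : ℝ → ℝ} (hΛ : 0 < Λ)
    (hw : ∀ r, HasDerivAt w (w' r) r)
    (h0 : ∀ r ≤ 0, 0 ≤ w' r + 2 * Λ * w r)
    (hlim : Tendsto (fun r => Real.exp (2 * Λ * r) * w r) atBot (𝓝 0))
    (hG : ∀ r ≤ 0, ‖G θ r‖ ≤ w' r + 2 * Λ * w r) {s : ℝ} (hs : s ≤ 0) :
    ‖L Λ G θ s‖ ≤ w s := by
  set g : ℝ → ℝ := fun u => - (Real.exp (-(2 * Λ) * u) * w (s - u)) with hg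
  set g' : ℝ → ℝ := fun u => Real.exp (-(2 * Λ) * u) * (w' (s - u) + 2 * Λ * w (s - u)) with hg'
  have hd : ∀ u, HasDerivAt g (g' u) u := by
    intro u
    have h1 : HasDerivAt (fun u : ℝ => Real.exp (-(2 * Λ) * u))
        (Real.exp (-(2 * Λ) * u) * (-(2 * Λ))) u := by
      have h2 : HasDerivAt (fun u : ℝ => -(2 * Λ) * u) (-(2 * Λ)) u := by
        simpa using (hasDerivAt_id u).const_mul (-(2 * Λ))
      exact h2.exp
    have h3 : HasDerivAt (fun u : ℝ => w (s - u)) (-(w' (s - u))) u :=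
      (hw (s - u)).comp_const_sub s u
    refine ((h1.fun_mul h3).fun_neg).congr_deriv ?_
    simp only [hg']
    ring
  have hpos : ∀ u ∈ Ioi (0 : ℝ), 0 ≤ g' u := fun u hu => by
    have hu' : (0 : ℝ) < u := hu
    exact mul_nonneg (Real.exp_pos _).le (h0 _ (by linarith))
  have hT : Tendsto g atTop (𝓝 0) := by
    have h1 : Tendsto (fun u : ℝ => s - u) atTop atBot := by
      simpa [sub_eq_add_neg] using tendsto_atBot_add_const_left atTop s tendsto_neg_atTop_atBot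
    have h2 := (hlim.comp h1).const_mul (-(Real.exp (-(2 * Λ * s))))
    rw [mul_zero] at h2
    refine h2.congr fun u => ?_
    simp only [Function.comp, hg]
    rw [neg_mul, neg_inj, ← mul_assoc, ← Real.exp_add]
    congr 2
    ring
  have hint : IntegrableOn g' (Ioi 0) :=
    integrableOn_Ioi_deriv_of_nonneg' (fun u _ => hd u) hpos hT
  have hval : ∫ u in Ioi (0 : ℝ), g' u = w s := by
    rw [integral_Ioi_of_hasDerivAt_of_nonneg' (fun u _ => hd u) hpos hT]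
    simp [hg]
  rw [← hval]
  unfold L
  refine norm_integral_le_of_norm_le hint ?_
  refine (ae_restrict_iff' measurableSet_Ioi).2 (Eventually.of_forall fun u hu => ?_)
  have hu' : (0 : ℝ) < u := hu
  rw [norm_smul, Real.norm_eq_abs, Real.abs_exp]
  exact mul_le_mul_of_nonneg_left (hG _ (by linarith)) (Real.exp_pos _).le

/-- Weights. -/
structure HypW (lam Λ δ C : ℝ) (N M : Θ → ℝ → A) (a W W' : Θ → ℝ → ℝ) : Prop where
  δ0 : 0 < δ
  Wpos : ∀ θ r, 0 < W θ r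
  deriv : ∀ θ r, HasDerivAt (W θ) (W' θ r) r
  ineq : ∀ θ, ∀ r ≤ 0, δ * W θ r ≤ W' θ r + 2 * a θ r * W θ r
  lim : ∀ θ, Tendsto (fun r => Real.exp (2 * Λ * r) * W θ r) atBot (𝓝 0)
  a0 : ∀ θ r, 0 ≤ a θ r
  aT : ∀ θ r, ‖T Λ N θ r‖ ≤ Λ - a θ r
  M : ∀ θ, ∀ r ≤ 0, ‖M θ r‖ ≤ C * W θ r

section Weighted

variable {δ C' : ℝ} {a W W' : Θ → ℝ → ℝ}

theorem HypW.a_le (hW : HypW lam Λ δ C' N M a W W') (θ : Θ) (r : ℝ) : a θ r ≤ Λ := by
  have := (norm_nonneg _).trans (hW.aT θ r)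
  linarith

/-- the basic estimate: if `‖G‖ ≤ (c + (2 (Λ - a) + δ / 2) D) W` then `‖L G‖ ≤ (c / δ + q D) W` -/
theorem L_W_step (h : HypN lam Λ N) (hW : HypW lam Λ δ C' N M a W W') {G : Θ → ℝ → A} {θ : Θ}
    {c D : ℝ} (hc : 0 ≤ c) (hD : 0 ≤ D)
    (hG : ∀ r ≤ 0, ‖G θ r‖ ≤ (c + (2 * (Λ - a θ r) + δ / 2) * D) * W θ r) {s : ℝ} (hs : s ≤ 0) :
    ‖L Λ G θ s‖ ≤ (c / δ + (2 * Λ + δ / 2) / (2 * Λ + δ) * D) * W θ s := by
  have hδ := hW.δ0
  have hΛ := h.Λ_pos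
  set E := c / δ + (2 * Λ + δ / 2) / (2 * Λ + δ) * D with hE
  have hE0 : 0 ≤ E := by positivity
  have key : ∀ r ≤ 0, (c + (2 * (Λ - a θ r) + δ / 2) * D) * W θ r ≤
      E * W' θ r + 2 * Λ * (E * W θ r) := by
    intro r hr
    have h1 := hW.ineq θ r hr
    have hw := hW.Wpos θ r
    have ha := hW.a_le θ r
    have ha0 := hW.a0 θ r
    have h2 : (2 * (Λ - a θ r) + δ) * W θ r ≤ W' θ r + 2 * Λ * W θ r := by linarith
    have h3 : (c + (2 * (Λ - a θ r) + δ / 2) * D) ≤ E * (2 * (Λ - a θ r) + δ) := by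
      have e1 : c ≤ c / δ * (2 * (Λ - a θ r) + δ) := by
        have : c / δ * δ = c := by field_simp
        have h4 : 0 ≤ c / δ * (2 * (Λ - a θ r)) := by
          have : 0 ≤ Λ - a θ r := by linarith
          positivity
        nlinarith
      have e2 : (2 * (Λ - a θ r) + δ / 2) ≤ (2 * Λ + δ / 2) / (2 * Λ + δ) *
          (2 * (Λ - a θ r) + δ) := by
        rw [div_mul_eq_mul_div, le_div_iff₀ (by positivity)]
        nlinarith
      have e3 := mul_le_mul_of_nonneg_right e2 hD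
      rw [hE]
      nlinarith
    calc (c + (2 * (Λ - a θ r) + δ / 2) * D) * W θ r
        ≤ E * (2 * (Λ - a θ r) + δ) * W θ r := mul_le_mul_of_nonneg_right h3 hw.le
      _ = E * ((2 * (Λ - a θ r) + δ) * W θ r) := by ring
      _ ≤ E * (W' θ r + 2 * Λ * W θ r) := mul_le_mul_of_nonneg_left h2 hE0
      _ = _ := by ring
  refine norm_L_le_W (w := fun r => E * W θ r) (w' := fun r => E * W' θ r) hΛ
    (fun r => (hW.deriv θ r).const_mul E) (fun r hr => ?_) ?_ (fun r hr => ?_) hs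
  · refine le_trans ?_ (key r hr)
    have ha := hW.a_le θ r
    have hw := hW.Wpos θ r
    have : 0 ≤ Λ - a θ r := by linarith
    positivity
  · have h1 := (hW.lim θ).const_mul E
    rw [mul_zero] at h1
    refine h1.congr fun r => ?_
    ring
  · exact (hG r hr).trans (key r hr)

theorem qW_lt_one (h : HypN lam Λ N) (hδ : 0 < δ) : (2 * Λ + δ / 2) / (2 * Λ + δ) < 1 := by
  have hΛ := h.Λ_pos
  rw [div_lt_one (by positivity)]
  linarith

theorem qW_pos (h : HypN lam Λ N) (hδ : 0 < δ) : 0 < (2 * Λ + δ / 2) / (2 * Λ + δ) := by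
  have hΛ := h.Λ_pos
  positivity

/-- the `T_k` are eventually bounded by `Λ - a + δ / 4` -/
theorem exists_k0 (h : HypN lam Λ N) (hW : HypW lam Λ δ C' N M a W W') :
    ∃ k₀, ∀ k ≥ k₀, ∀ θ r, ‖Tk Λ N k θ r‖ ≤ Λ - a θ r + δ / 4 := by
  have hδ := hW.δ0
  have := Metric.tendstoUniformly_iff.1 (Tk_unif h) (δ / 4) (by positivity)
  obtain ⟨k₀, hk₀⟩ := eventually_atTop.1 this
  refine ⟨k₀, fun k hk θ r => ?_⟩
  have h1 := hk₀ k hk (θ, r)
  rw [dist_comm, dist_eq_norm] at h1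
  have h2 := hW.aT θ r
  have h3 : ‖Tk Λ N k θ r‖ ≤ ‖Tk Λ N k θ r - T Λ N θ r‖ + ‖T Λ N θ r‖ := by
    have := norm_add_le (Tk Λ N k θ r - T Λ N θ r) (T Λ N θ r)
    rwa [sub_add_cancel] at this
  simp only at h1
  linarith

theorem mul_bound {x t : A} {D w τ : ℝ} (hx : ‖x‖ ≤ D * w) (ht : ‖t‖ ≤ τ) :
    ‖x * t + t * x‖ ≤ 2 * τ * D * w := by
  have hτ : 0 ≤ τ := (norm_nonneg _).trans ht
  have hDw : 0 ≤ D * w := (norm_nonneg _).trans hx
  calc ‖x * t + t * x‖ ≤ ‖x‖ * ‖t‖ + ‖t‖ * ‖x‖ :=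
        (norm_add_le _ _).trans (add_le_add (norm_mul_le _ _) (norm_mul_le _ _))
    _ ≤ D * w * τ + τ * (D * w) := by gcongr
    _ = _ := by ring

/-- one step of the iteration, with the good bound of `T_k` -/
theorem Sk_W_step (h : HypN lam Λ N) (hW : HypW lam Λ δ C' N M a W W') (hC' : 0 ≤ C') {k : ℕ}
    {D : ℝ} (hD : 0 ≤ D) (hT : ∀ θ r, ‖Tk Λ N k θ r‖ ≤ Λ - a θ r + δ / 4)
    (hS : ∀ θ, ∀ r ≤ 0, ‖Sk Λ N M k θ r‖ ≤ D * W θ r) (θ : Θ) {s : ℝ} (hs : s ≤ 0) :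
    ‖Sk Λ N M (k + 1) θ s‖ ≤ (C' / δ + (2 * Λ + δ / 2) / (2 * Λ + δ) * D) * W θ s := by
  rw [Sk_succ]
  refine L_W_step h hW hC' hD (fun r hr => ?_) hs
  refine (norm_add_le _ _).trans ?_
  have h1 := mul_bound (hS θ r hr) (hT θ r)
  have h2 := hW.M θ r hr
  have h3 : (C' + (2 * (Λ - a θ r) + δ / 2) * D) * W θ r =
      C' * W θ r + 2 * (Λ - a θ r + δ / 4) * D * W θ r := by ring
  rw [h3]
  exact add_le_add h2 h1

/-- each iterate has a weighted bound -/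
theorem exists_Sk_W (h : HypN lam Λ N) (hW : HypW lam Λ δ C' N M a W W') (hC' : 0 ≤ C') (k : ℕ) :
    ∃ D, 0 ≤ D ∧ ∀ θ, ∀ s ≤ 0, ‖Sk Λ N M k θ s‖ ≤ D * W θ s := by
  have hδ := hW.δ0
  have hΛ := h.Λ_pos
  have hle : 0 ≤ Λ - lam := sub_nonneg.2 h.le
  induction k with
  | zero => exact ⟨0, le_rfl, fun θ s _ => by simp [Sk]⟩
  | succ k ih =>
    obtain ⟨D, hD, hb⟩ := ih
    refine ⟨(C' + 2 * (Λ - lam) * D) / δ + (2 * Λ + δ / 2) / (2 * Λ + δ) * 0, by positivity,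
      fun θ s hs => ?_⟩
    rw [Sk_succ]
    refine L_W_step h hW (by positivity) le_rfl (fun r hr => ?_) hs
    refine (norm_add_le _ _).trans ?_
    have h1 := mul_bound (hb θ r hr) (Tk_le h k θ r)
    have h2 := hW.M θ r hr
    rw [mul_zero, add_zero, add_mul]
    exact add_le_add h2 h1

/-- **uniform weighted bound of the iterates** -/
theorem Sk_W (h : HypN lam Λ N) (hW : HypW lam Λ δ C' N M a W W') (hC' : 0 ≤ C') :
    ∃ D, 0 ≤ D ∧ ∀ k θ, ∀ s ≤ 0, ‖Sk Λ N M k θ s‖ ≤ D * W θ s := by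
  have hδ := hW.δ0
  obtain ⟨k₀, hk₀⟩ := exists_k0 h hW
  choose d hd0 hd using exists_Sk_W h hW hC'
  set q := (2 * Λ + δ / 2) / (2 * Λ + δ) with hq
  have hq0 := qW_pos h hδ
  have hq1 := qW_lt_one h hδ
  rw [← hq] at hq0 hq1
  have h1q : 0 < 1 - q := by linarith
  set D := ∑ k ∈ Finset.range (k₀ + 1), d k + C' / δ / (1 - q) with hD
  have hsum : 0 ≤ ∑ k ∈ Finset.range (k₀ + 1), d k := Finset.sum_nonneg fun k _ => hd0 k
  have hD0 : 0 ≤ D := by positivity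
  have hsmall : ∀ k ≤ k₀, d k ≤ D := by
    intro k hk
    have h1 := Finset.single_le_sum (f := d) (fun k _ => hd0 k)
      (Finset.mem_range.2 (Nat.lt_succ_of_le hk))
    have h2 : 0 ≤ C' / δ / (1 - q) := by positivity
    linarith
  have hstep : C' / δ + q * D ≤ D := by
    have h2 : C' / δ / (1 - q) * (1 - q) = C' / δ := by field_simp
    have h3 : C' / δ ≤ D * (1 - q) := by
      rw [hD, add_mul, h2]
      nlinarith
    linarith
  have hbig : ∀ j θ, ∀ s ≤ 0, ‖Sk Λ N M (k₀ + j) θ s‖ ≤ D * W θ s := by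
    intro j
    induction j with
    | zero =>
      intro θ s hs
      exact (hd k₀ θ s hs).trans (mul_le_mul_of_nonneg_right (hsmall k₀ le_rfl)
        (hW.Wpos θ s).le)
    | succ j ih =>
      intro θ s hs
      refine (Sk_W_step h hW hC' hD0 (hk₀ _ (Nat.le_add_right _ _)) ih θ hs).trans ?_
      exact mul_le_mul_of_nonneg_right hstep (hW.Wpos θ s).le
  refine ⟨D, hD0, fun k θ s hs => ?_⟩
  rcases le_total k k₀ with hk | hk
  · exact (hd k θ s hs).trans (mul_le_mul_of_nonneg_right (hsmall k hk) (hW.Wpos θ s).le)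
  · obtain ⟨j, rfl⟩ := Nat.exists_eq_add_of_le hk
    exact hbig j θ s hs

/-- **geometric convergence of the iterates in the weighted norm** -/
theorem Sk_sub_W (h : HypN lam Λ N) (hM : HypC Λ κ C M) (hW : HypW lam Λ δ C' N M a W W')
    (hC' : 0 ≤ C') :
    ∃ B r, 0 ≤ B ∧ 0 < r ∧ r < 1 ∧ ∀ k θ, ∀ s ≤ 0,
      ‖Sk Λ N M (k + 1) θ s - Sk Λ N M k θ s‖ ≤ B * r ^ k * W θ s := by
  have hδ := hW.δ0
  have hΛ := h.Λ_pos
  have hle : 0 ≤ Λ - lam := sub_nonneg.2 h.le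
  obtain ⟨k₀, hk₀⟩ := exists_k0 h hW
  obtain ⟨D, hD0, hD⟩ := Sk_W h hW hC'
  set q := (2 * Λ + δ / 2) / (2 * Λ + δ) with hq
  have hq0 := qW_pos h hδ
  have hq1 := qW_lt_one h hδ
  rw [← hq] at hq0 hq1
  set ρ := (Λ - lam) / Λ with hρ
  have hρ0 : 0 ≤ ρ := q_nonneg h
  have hρ1 : ρ < 1 := q_lt_one h
  set r := (max q ρ + 1) / 2 with hr
  have hmax : max q ρ < 1 := max_lt hq1 hρ1
  have hqr : q < r := by
    have := le_max_left q ρ
    rw [hr]; linarith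
  have hρr : ρ ≤ r := by
    have := le_max_right q ρ
    rw [hr]; linarith
  have hr0 : 0 < r := hq0.trans hqr
  have hr1 : r < 1 := by rw [hr]; linarith
  have hrq : 0 < r - q := by linarith
  set c := 2 * (Λ - lam) * D / δ with hc
  have hc0 : 0 ≤ c := by positivity
  set B := 2 * D / r ^ k₀ + c / (r - q) with hB
  have hB0 : 0 ≤ B := by positivity
  have hcB : c ≤ B * (r - q) := by
    have h1 : c / (r - q) * (r - q) = c := by field_simp
    have h2 : 0 ≤ 2 * D / r ^ k₀ * (r - q) := by positivity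
    rw [hB, add_mul, h1]
    linarith
  have hsmall : ∀ k ≤ k₀, 2 * D ≤ B * r ^ k := by
    intro k hk
    have h1 : 2 * D / r ^ k₀ * r ^ k₀ = 2 * D := by field_simp
    have h2 : r ^ k₀ ≤ r ^ k := pow_le_pow_of_le_one hr0.le hr1.le hk
    have h3 : 0 ≤ c / (r - q) * r ^ k := by positivity
    have h4 : 2 * D / r ^ k₀ * r ^ k₀ ≤ 2 * D / r ^ k₀ * r ^ k :=
      mul_le_mul_of_nonneg_left h2 (by positivity)
    rw [hB, add_mul]
    linarith
  have hcrude : ∀ k θ, ∀ s ≤ 0, ‖Sk Λ N M (k + 1) θ s - Sk Λ N M k θ s‖ ≤ 2 * D * W θ s := by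
    intro k θ s hs
    refine (norm_sub_le _ _).trans ?_
    have h1 := hD (k + 1) θ s hs
    have h2 := hD k θ s hs
    linarith
  have hbig : ∀ j θ, ∀ s ≤ 0, ‖Sk Λ N M (k₀ + j + 1) θ s - Sk Λ N M (k₀ + j) θ s‖ ≤
      B * r ^ (k₀ + j) * W θ s := by
    intro j
    induction j with
    | zero =>
      intro θ s hs
      exact (hcrude k₀ θ s hs).trans (mul_le_mul_of_nonneg_right (hsmall k₀ le_rfl)
        (hW.Wpos θ s).le)
    | succ j ih =>
      intro θ s hs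
      set k := k₀ + j with hk
      have hkk : k₀ + (j + 1) = k + 1 := rfl
      rw [hkk]
      have e : Sk Λ N M (k + 1 + 1) θ s - Sk Λ N M (k + 1) θ s =
          L Λ (fun θ r => Gk Λ N M (k + 1) θ r - Gk Λ N M k θ r) θ s :=
        L_sub hM.κ0 hM.κ_lt (Gc_nonneg h hM (k + 1)) (Gc_nonneg h hM k)
          (Gk_cont' h hM (k + 1) θ) (Gk_cont' h hM k θ) (Gk_bd h hM (k + 1) θ) (Gk_bd h hM k θ) s
      rw [e]
      have hstep := L_W_step h hW (G := fun θ r => Gk Λ N M (k + 1) θ r - Gk Λ N M k θ r)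
        (θ := θ) (c := 2 * ((Λ - lam) * ρ ^ k) * D) (D := B * r ^ k) (by positivity)
        (by positivity) (fun u hu => ?_) hs
      · refine hstep.trans (mul_le_mul_of_nonneg_right ?_ (hW.Wpos θ s).le)
        have h1 : 2 * ((Λ - lam) * ρ ^ k) * D / δ = c * ρ ^ k := by rw [hc]; ring
        have h2 : c * ρ ^ k ≤ c * r ^ k :=
          mul_le_mul_of_nonneg_left (pow_le_pow_left₀ hρ0 hρr k) hc0
        have h3 : c * r ^ k ≤ B * (r - q) * r ^ k :=
          mul_le_mul_of_nonneg_right hcB (by positivity)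
        rw [h1, pow_succ]
        nlinarith
      · set S' := Sk Λ N M (k + 1) θ u
        set S := Sk Λ N M k θ u
        set T' := Tk Λ N (k + 1) θ u
        set T := Tk Λ N k θ u
        have e1 : Gk Λ N M (k + 1) θ u - Gk Λ N M k θ u
            = ((S' - S) * T' + T' * (S' - S)) + (S * (T' - T) + (T' - T) * S) := by
          simp only [Gk]
          noncomm_ring
        rw [e1]
        have hTT : ‖T' - T‖ ≤ (Λ - lam) * ρ ^ k := Tk_sub_le h k θ u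
        have hTb : ‖T'‖ ≤ Λ - a θ u + δ / 4 := hk₀ _ (by omega) θ u
        have h1 := mul_bound (ih θ u hu) hTb
        have h2 := mul_bound (hD k θ u hu) hTT
        refine (norm_add_le _ _).trans ((add_le_add h1 h2).trans (le_of_eq ?_))
        ring
  refine ⟨B, r, hB0, hr0, hr1, fun k θ s hs => ?_⟩
  rcases le_total k k₀ with hk | hk
  · exact (hcrude k θ s hs).trans (mul_le_mul_of_nonneg_right (hsmall k hk) (hW.Wpos θ s).le)
  · obtain ⟨j, rfl⟩ := Nat.exists_eq_add_of_le hk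
    exact hbig j θ s hs

/-- convergence on the past -/
theorem SkW_tendsto (h : HypN lam Λ N) (hM : HypC Λ κ C M) (hW : HypW lam Λ δ C' N M a W W')
    (hC' : 0 ≤ C') (θ : Θ) {s : ℝ} (hs : s ≤ 0) :
    Tendsto (fun k => Sk Λ N M k θ s) atTop (𝓝 (S Λ N M θ s)) := by
  obtain ⟨B, r, -, -, hr1, hB⟩ := Sk_sub_W h hM hW hC'
  refine CauchySeq.tendsto_limUnder ?_
  refine cauchySeq_of_le_geometric _ (B * W θ s) hr1 fun k => ?_
  rw [dist_comm, dist_eq_norm]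
  refine (hB k θ s hs).trans (le_of_eq ?_)
  ring

/-- **uniform convergence at time `0`** -/
theorem SkW_dist (h : HypN lam Λ N) (hM : HypC Λ κ C M) (hW : HypW lam Λ δ C' N M a W W')
    (hC' : 0 ≤ C') {w : ℝ} (hw : ∀ θ, W θ 0 ≤ w) :
    ∃ e : ℕ → ℝ, Tendsto e atTop (𝓝 0) ∧ (∀ k, 0 ≤ e k) ∧
      ∀ k θ, ‖Sk Λ N M k θ 0 - S Λ N M θ 0‖ ≤ e k := by
  obtain ⟨B, r, hB0, hr0, hr1, hB⟩ := Sk_sub_W h hM hW hC'
  have h1r : 0 < 1 - r := by linarith
  refine ⟨fun k => B * |w| * r ^ k / (1 - r), ?_, fun k => by positivity, fun k θ => ?_⟩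
  · have h1 := ((tendsto_pow_atTop_nhds_zero_of_lt_one hr0.le hr1).const_mul (B * |w|)).div_const
      (1 - r)
    rwa [mul_zero, zero_div] at h1
  · have h1 := dist_le_of_le_geometric_of_tendsto r (B * |w|) hr1 (fun k => ?_)
      (SkW_tendsto h hM hW hC' θ le_rfl) k
    · rwa [dist_eq_norm] at h1
    · rw [dist_comm, dist_eq_norm]
      refine (hB k θ 0 le_rfl).trans ?_
      have h2 : W θ 0 ≤ |w| := (hw θ).trans (le_abs_self w)
      calc B * r ^ k * W θ 0 ≤ B * r ^ k * |w| := by gcongr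
        _ = _ := by ring

end Weighted

end Vale.Agent.P207.Q.Ric
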