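import Vale.Agent.P207.Q.H183.JUCurv
import Vale.Agent.P207.Q.H791.JUW
import Vale.Agent.P207.Q.H791.GrowthW
import Vale.Agent.P207.Q.H791.MaxP

/-!
# P207: the unstable solution as a `C¹` jet under the pointwise pinching condition
-/

open MeasureTheory Filter Topology Set
open scoped Matrix.Norms.L2Operator RealInnerProductSpace

set_option linter.unusedSectionVars false

noncomputable section

namespace Vale.Agent.P207.Q.H791

open Vale.Agent.P207.Q.H413 Vale.Agent.P207.Q.Trans Vale.Agent.P207.Q.Ric Vale.Agent.P207.Q.H183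
open Vale.Agent.P207.Q.H892 (Curv)

section Weight

variable {P : Type} [TopologicalSpace P] [CompactSpace P] {φ : ℝ → P → P}
  {u v w k1 k2 k3 : C(P, ℝ)} {lam Λ : ℝ}

/-- the trace -/
def tt (u w : C(P, ℝ)) (p : P) : ℝ := u p + w p

/-- the upper eigenvalue -/
def ee (u v w : C(P, ℝ)) : C(P, ℝ) :=
  ⟨fun p => (u p + w p) / 2 + Real.sqrt (bb (u p) (v p) (w p)), by unfold bb; fun_prop⟩

/-- the lower eigenvalue -/
def aa (u v w : C(P, ℝ)) : C(P, ℝ) :=
  ⟨fun p => (u p + w p) / 2 - Real.sqrt (bb (u p) (v p) (w p)), by unfold bb; fun_prop⟩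

theorem ee_apply (p : P) : ee u v w p = (u p + w p) / 2 + Real.sqrt (bb (u p) (v p) (w p)) := rfl
theorem aa_apply (p : P) : aa u v w p = (u p + w p) / 2 - Real.sqrt (bb (u p) (v p) (w p)) := rfl

/-- the logarithm of the density of the weight -/
def lr (u v w : C(P, ℝ)) (p : P) : ℝ :=
  245 / 1156 * Real.log (u p + w p) - 10 * (bb (u p) (v p) (w p) / (u p + w p) ^ 2)

/-- its derivative along the flow -/
def lr' (u v w k1 k2 k3 : C(P, ℝ)) (p : P) : ℝ :=
  245 / 1156 * (((k1 p + k3 p) - (u p + w p) ^ 2 / 2 - 2 * bb (u p) (v p) (w p)) / (u p + w p)) -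
    10 * (((2 * kb (u p) (v p) (w p) (k1 p) (k2 p) (k3 p) -
        2 * (u p + w p) * bb (u p) (v p) (w p)) * (u p + w p) ^ 2 -
      bb (u p) (v p) (w p) * (2 * (u p + w p) * ((k1 p + k3 p) - (u p + w p) ^ 2 / 2 -
        2 * bb (u p) (v p) (w p)))) / ((u p + w p) ^ 2) ^ 2)

theorem lr_deriv (h : RicC φ u v w k1 k2 k3) (ht : ∀ p, 0 < u p + w p) (p : P) (r : ℝ) :
    HasDerivAt (fun r => lr u v w (φ r p)) (lr' u v w k1 k2 k3 (φ r p)) r := by
  have h1 := ((h.t p r).log (ht _).ne').const_mul (245 / 1156)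
  have h2 := ((h.b p r).fun_div ((h.t p r).fun_pow 2) (pow_pos (ht _) 2).ne').const_mul 10
  refine (h1.fun_sub h2).congr_deriv ?_
  unfold lr'
  push_cast
  ring

theorem lr_cont (ht : ∀ p, 0 < u p + w p) : Continuous (lr u v w) := by
  unfold lr
  refine Continuous.sub (continuous_const.mul (Continuous.log (by fun_prop)
    fun p => (ht p).ne')) (continuous_const.mul (Continuous.div ?_ (by fun_prop)
    fun p => (pow_pos (ht p) 2).ne'))
  unfold bb; fun_prop

/-- the weight -/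
def Wt (φ : ℝ → P → P) (u v w : C(P, ℝ)) (p : P) (r : ℝ) : ℝ :=
  Real.exp (lr u v w (φ r p) + ∫ τ in r..0, ee u v w (φ τ p))

/-- its derivative -/
def Wt' (φ : ℝ → P → P) (u v w k1 k2 k3 : C(P, ℝ)) (p : P) (r : ℝ) : ℝ :=
  Wt φ u v w p r * (lr' u v w k1 k2 k3 (φ r p) - ee u v w (φ r p))

theorem Wt_deriv (hφ : Continuous fun z : ℝ × P => φ z.1 z.2) (h : RicC φ u v w k1 k2 k3)
    (ht : ∀ p, 0 < u p + w p) (p : P) (r : ℝ) :
    HasDerivAt (Wt φ u v w p) (Wt' φ u v w k1 k2 k3 p r) r := by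
  have hc : Continuous fun τ : ℝ => ee u v w (φ τ p) :=
    (ee u v w).continuous.comp (hφ.comp (continuous_id.prodMk continuous_const))
  have h1 : HasDerivAt (fun r => ∫ τ in r..0, ee u v w (φ τ p)) (- ee u v w (φ r p)) r :=
    intervalIntegral.integral_hasDerivAt_left (hc.intervalIntegrable _ _)
      (hc.stronglyMeasurableAtFilter _ _) hc.continuousAt
  refine (((lr_deriv h ht p r).fun_add h1).exp).congr_deriv ?_
  unfold Wt' Wt
  ring

theorem Wt_pos (p : P) (r : ℝ) : 0 < Wt φ u v w p r := Real.exp_pos _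

/-- the differential inequality of the weight -/
theorem Wt_ineq (hlam : 0 < lam)
    (hlo : ∀ p (x y : ℝ), lam * (x ^ 2 + y ^ 2) ≤ u p * x ^ 2 + 2 * v p * (x * y) + w p * y ^ 2)
    (hk0 : ∀ p, 0 ≤ k1 p + k3 p)
    (hk : ∀ p, bb (k1 p) (k2 p) (k3 p) ≤ (7 / 34) ^ 2 * (k1 p + k3 p) ^ 2)
    (hb : ∀ p, bb (u p) (v p) (w p) ≤ (7 / 34) ^ 2 * (u p + w p) ^ 2) (p : P) (r : ℝ) :
    lam / 5 * Wt φ u v w p r ≤ Wt' φ u v w k1 k2 k3 p r +
      2 * aa u v w (φ r p) * Wt φ u v w p r := by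
  set q := φ r p with hq
  have h1 := hlo q 1 0
  have h2 := hlo q 0 1
  norm_num at h1 h2
  have ht : 0 < u q + w q := by linarith
  set B := Real.sqrt (bb (u q) (v q) (w q)) with hB
  have hB2 : B ^ 2 = bb (u q) (v q) (w q) := Real.sq_sqrt (bb_nonneg _ _ _)
  have hB0 : 0 ≤ B := Real.sqrt_nonneg _
  have hBt : B ≤ 7 / 34 * (u q + w q) := by
    refine (abs_le.1 (abs_le_of_sq_le_sq ?_ (by positivity))).2
    rw [hB2, mul_pow]
    exact hb q
  have hkb := kb_le (u := u q) (v := v q) (w := w q) (c := 7 / 34) (by norm_num) (hk0 q) (hk q)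
  have key := weight_ineq ht hB0 hBt (hk0 q) hkb
  have hW := Wt_pos (φ := φ) (u := u) (v := v) (w := w) p r
  have key2 : lam / 5 ≤ lr' u v w k1 k2 k3 q - ee u v w q + 2 * aa u v w q := by
    rw [ee_apply, aa_apply, ← hB]
    unfold lr'
    rw [← hB2]
    linarith
  unfold Wt'
  rw [← hq]
  nlinarith [mul_le_mul_of_nonneg_left key2 hW.le]

theorem Wt_lim (hφ : Continuous fun z : ℝ × P => φ z.1 z.2) (ht : ∀ p, 0 < u p + w p)
    (hΛ : 0 < Λ) (he : ∀ p, ee u v w p ≤ Λ) (p : P) :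
    Tendsto (fun r => Real.exp (2 * Λ * r) * Wt φ u v w p r) atBot (𝓝 0) := by
  obtain ⟨b, hb⟩ : ∃ b, ∀ p, lr u v w p ≤ b := by
    have := isCompact_univ.exists_isMaxOn (s := (univ : Set P)) ⟨p, mem_univ p⟩
      (lr_cont (v := v) ht).continuousOn
    obtain ⟨q, -, hq⟩ := this
    exact ⟨_, fun p => hq (mem_univ p)⟩
  have hlim : Tendsto (fun r : ℝ => Real.exp (b + Λ * r)) atBot (𝓝 0) := by
    refine Real.tendsto_exp_atBot.comp ?_
    exact tendsto_atBot_add_const_left _ _ (tendsto_id.const_mul_atBot hΛ)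
  refine squeeze_zero' (Eventually.of_forall fun r =>
    (mul_pos (Real.exp_pos _) (Wt_pos p r)).le) ?_ hlim
  filter_upwards [eventually_le_atBot (0 : ℝ)] with r hr
  have hc : Continuous fun τ : ℝ => ee u v w (φ τ p) :=
    (ee u v w).continuous.comp (hφ.comp (continuous_id.prodMk continuous_const))
  have h1 : ∫ τ in r..0, ee u v w (φ τ p) ≤ ∫ τ in r..0, Λ :=
    intervalIntegral.integral_mono_on hr (hc.intervalIntegrable _ _) intervalIntegrable_const
      fun τ _ => he _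
  rw [intervalIntegral.integral_const, smul_eq_mul] at h1
  unfold Wt
  rw [← Real.exp_add]
  refine Real.exp_le_exp.2 ?_
  have := hb (φ r p)
  linarith

end Weight

variable {P : Type} [TopologicalSpace P] [CompactSpace P] [MeasurableSpace P] [BorelSpace P]
  {m : Measure P} [IsFiniteMeasure m] {c : Cal (intL m)} {ψ : Idx → ℝ → P → P}
  [FirstCountableTopology P]

theorem exists_KBase (C : Curv c) (T : TF c ψ) {lam Λ : ℝ} (hlam : 0 < lam) (hle : lam ≤ Λ)
    (lower : ∀ p (x y : ℝ), lam ^ 2 * (x ^ 2 + y ^ 2) ≤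
      C.K 0 0 p * x ^ 2 + 2 * C.K 0 1 p * (x * y) + C.K 1 1 p * y ^ 2)
    (upper : ∀ p (x y : ℝ), C.K 0 0 p * x ^ 2 + 2 * C.K 0 1 p * (x * y) + C.K 1 1 p * y ^ 2 ≤
      Λ ^ 2 * (x ^ 2 + y ^ 2)) : ∃ B, KBase (flowOf T) (KS C) lam Λ Λ B := by
  have hΛ : 0 < Λ := hlam.trans_le hle
  have hgr := growth_of_curv C T hΛ (fun p x y => le_trans (by positivity) (lower p x y)) upper
  choose B hB0 hB using hgr
  have hB1 : ∀ i j, B (KS C i j) ≤ ∑ i : Fin 2, ∑ j : Fin 2, B (KS C i j) := by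
    intro i j
    exact (Finset.single_le_sum (f := fun j => B (KS C i j)) (fun j _ => hB0 _)
            (Finset.mem_univ j)).trans
      (Finset.single_le_sum (f := fun i => ∑ j : Fin 2, B (KS C i j))
            (fun i _ => Finset.sum_nonneg fun j _ => hB0 _) (Finset.mem_univ i))
  refine ⟨∑ i : Fin 2, ∑ j : Fin 2, B (KS C i j),
    { lam_pos := hlam
      le := hle
      κ0 := hΛ.le
      κ_lt := by linarith
      C0 := Finset.sum_nonneg fun i _ => Finset.sum_nonneg fun j _ => hB0 _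
      sym := rfl
      lower := lower
      upper := upper
      R00 := ?_
      R01 := ?_
      R11 := ?_
      R_pull := fun r i j => ?_
      growth := fun k i j r p => (hB (KS C i j) k r p).trans
        (mul_le_mul_of_nonneg_right (hB1 i j) (Real.exp_pos _).le) }⟩
  · rw [k00, k01, C.RE22, mul_neg, two_mul]
  · rw [k01, k11, k00, map_neg, C.RE12, neg_sub]
  · rw [k11, k01, C.RE11, neg_mul_neg, two_mul]
  · apply Subtype.ext
    ext p
    rw [FlowS.pull_apply]
    exact T.R_cmp (RX_comm c) r (KS C i j) p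

/-- **The unstable solution under pointwise pinching.** -/
theorem exists_UDataW (C : Curv c) (T : TF c ψ) {lam Λ : ℝ} (hlam : 0 < lam) (hle : lam ≤ Λ)
    (lower : ∀ p (x y : ℝ), lam ^ 2 * (x ^ 2 + y ^ 2) ≤
      C.K 0 0 p * x ^ 2 + 2 * C.K 0 1 p * (x * y) + C.K 1 1 p * y ^ 2)
    (upper : ∀ p (x y : ℝ), C.K 0 0 p * x ^ 2 + 2 * C.K 0 1 p * (x * y) + C.K 1 1 p * y ^ 2 ≤
      Λ ^ 2 * (x ^ 2 + y ^ 2))
    (hk : ∀ p, ((C.K 0 0 p - C.K 1 1 p) / 2) ^ 2 + C.K 0 1 p ^ 2 ≤
      (7 / 34) ^ 2 * (C.K 0 0 p + C.K 1 1 p) ^ 2) :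
    ∃ D : UData c C,
      (∀ p (x y : ℝ), lam * (x ^ 2 + y ^ 2) ≤
        D.U 0 0 p * x ^ 2 + 2 * D.U 0 1 p * (x * y) + D.U 1 1 p * y ^ 2) ∧
      (∀ p (x y : ℝ), D.U 0 0 p * x ^ 2 + 2 * D.U 0 1 p * (x * y) + D.U 1 1 p * y ^ 2 ≤
        Λ * (x ^ 2 + y ^ 2)) ∧
      (∀ i j p r, HasDerivAt (fun r => D.U i j (ψ .X r p))
        (C.K i j (ψ .X r p) - ∑ k, D.U i k (ψ .X r p) * D.U k j (ψ .X r p)) r) ∧
      (∀ p, ((D.U 0 0 p - D.U 1 1 p) / 2) ^ 2 + D.U 0 1 p ^ 2 ≤
        (7 / 34) ^ 2 * (D.U 0 0 p + D.U 1 1 p) ^ 2) := by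
  have hΛ : 0 < Λ := hlam.trans_le hle
  obtain ⟨B, hK⟩ := exists_KBase C T hlam hle lower upper
  set U := U0 hK with hU
  set u := U 0 0 with hu
  set v := U 0 1 with hv
  set w := U 1 1 with hw
  have hs : U 1 0 = v := U0_symm hK
  have hflow : ∀ i j p r, HasDerivAt (fun r => U i j (ψ .X r p))
      (C.K i j (ψ .X r p) - ∑ k, U i k (ψ .X r p) * U k j (ψ .X r p)) r := by
    intro i j p r
    have := U0_deriv hK i j p r
    rw [coe_KS] at this
    exact this
  have hR : RicC (ψ .X) u v w (C.K 0 0) (C.K 0 1) (C.K 1 1) := by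
    refine ⟨fun p r => ?_, fun p r => ?_, fun p r => ?_⟩
    · have := hflow 0 0 p r
      rwa [Fin.sum_univ_two, hs] at this
    · have := hflow 0 1 p r
      rwa [Fin.sum_univ_two] at this
    · have := hflow 1 1 p r
      rwa [Fin.sum_univ_two, hs] at this
  have hlo : ∀ p (x y : ℝ), lam * (x ^ 2 + y ^ 2) ≤
      u p * x ^ 2 + 2 * v p * (x * y) + w p * y ^ 2 := U0_lower hK
  have hup : ∀ p (x y : ℝ), u p * x ^ 2 + 2 * v p * (x * y) + w p * y ^ 2 ≤
      Λ * (x ^ 2 + y ^ 2) := U0_upper hK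
  have hk0 : ∀ p, 0 ≤ C.K 0 0 p + C.K 1 1 p := fun p => by
    have h1 := lower p 1 0
    have h2 := lower p 0 1
    norm_num at h1 h2
    nlinarith [sq_nonneg lam]
  have hb : ∀ p, bb (u p) (v p) (w p) ≤ (7 / 34) ^ 2 * (u p + w p) ^ 2 :=
    bb_le hR (T.zero .X) hlam hlo (by norm_num) hk0 hk
  have ht : ∀ p, 0 < u p + w p := fun p => by
    have h1 := hlo p 1 0
    have h2 := hlo p 0 1
    norm_num at h1 h2
    linarith
  have heΛ : ∀ p, ee u v w p ≤ Λ := fun p => by
    have := sqrt_le_of_upper (hup p)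
    rw [ee_apply]; linarith
  have haΛ : ∀ p, aa u v w p ≤ Λ := fun p => by
    have h1 := sqrt_le_of_upper (hup p)
    have h2 := Real.sqrt_nonneg (bb (u p) (v p) (w p))
    rw [aa_apply]; linarith
  have ha0 : ∀ p, 0 ≤ aa u v w p := fun p => by
    have := sqrt_le_of_lower (hlo p)
    rw [aa_apply]; linarith
  -- the growth
  have hgr := fun f : c.S => exists_growthW T (K := C.K) (U := U)
    (ρ := fun i => if i = 0 then (C.E02 : C(P, ℝ)) else - (C.E01 : C(P, ℝ)))
    (RX_comm c) (HX_comm C) rfl hflow hs hlam (e := ee u v w) hlo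
    (fun p x y => quad_upper (u p) (v p) (w p) x y) f
  choose G hG0 hG using hgr
  set G1 : ℝ := ∑ i : Fin 2, ∑ j : Fin 2, G (KS C i j) with hG1
  have hG10 : 0 ≤ G1 := Finset.sum_nonneg fun i _ => Finset.sum_nonneg fun j _ => hG0 _
  have hG2 : ∀ i j, G (KS C i j) ≤ G1 := by
    intro i j
    exact (Finset.single_le_sum (f := fun j => G (KS C i j)) (fun j _ => hG0 _)
            (Finset.mem_univ j)).trans
      (Finset.single_le_sum (f := fun i => ∑ j : Fin 2, G (KS C i j))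
            (fun i _ => Finset.sum_nonneg fun j _ => hG0 _) (Finset.mem_univ i))
  obtain ⟨b, hb0, hb'⟩ := exists_norm_le
  -- bounds of the density
  obtain ⟨bm, hbm⟩ : ∃ bm, ∀ p, bm ≤ lr u v w p := by
    rcases isEmpty_or_nonempty P with hE | hE
    · exact ⟨0, fun p => (hE.false p).elim⟩
    · obtain ⟨q, -, hq⟩ := isCompact_univ.exists_isMinOn (s := (univ : Set P)) univ_nonempty
        (lr_cont (v := v) ht).continuousOn
      exact ⟨_, fun p => hq (mem_univ p)⟩
  obtain ⟨bM, hbM⟩ : ∃ bM, ∀ p, lr u v w p ≤ bM := by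
    rcases isEmpty_or_nonempty P with hE | hE
    · exact ⟨0, fun p => (hE.false p).elim⟩
    · obtain ⟨q, -, hq⟩ := isCompact_univ.exists_isMaxOn (s := (univ : Set P)) univ_nonempty
        (lr_cont (v := v) ht).continuousOn
      exact ⟨_, fun p => hq (mem_univ p)⟩
  set C₁ : ℝ := b * G1 * Real.exp (-bm) with hC₁
  have hC₁0 : 0 ≤ C₁ := by positivity
  have hW : ∀ k, HypW lam Λ (lam / 5) C₁ (NK (flowOf T) (KS C) Λ) (MK (flowOf T) (KS C) k)
      (fun p r => aa u v w (ψ .X r p)) (Wt (ψ .X) u v w)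
      (Wt' (ψ .X) u v w (C.K 0 0) (C.K 0 1) (C.K 1 1)) := by
    intro k
    refine { δ0 := by positivity
             Wpos := fun p r => Wt_pos p r
             deriv := fun p r => Wt_deriv (T.cont .X) hR ht p r
             ineq := fun p r _ => Wt_ineq hlam hlo hk0 hk hb p r
             lim := fun p => Wt_lim (T.cont .X) ht hΛ heΛ p
             a0 := fun p r => ha0 _
             aT := fun p r => ?_
             M := fun p r hr => ?_ }
    · -- the norm of `T`
      set q := ψ .X r p with hq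
      have e : ∀ i j, Ric.T Λ (NK (flowOf T) (KS C) Λ) p r i j =
          (if i = j then Λ else 0) - U i j q := fun i j => by
        have := U0_flow hK i j p r
        have h2 : (flowOf T).φ r p = q := rfl
        rw [h2] at this
        rw [hU, this]; ring
      have hqf : ∀ x y, qf x y (Ric.T Λ (NK (flowOf T) (KS C) Λ) p r) = Λ * (x ^ 2 + y ^ 2) -
          (u q * x ^ 2 + 2 * v q * (x * y) + w q * y ^ 2) := by
        intro x y
        rw [qf, e, e, e, e, hs, ← hu, ← hv, ← hw]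
        simp
        ring
      refine norm_M2_le ?_ (by linarith [haΛ q]) fun x y => ?_
      · rw [e, e, hs, ← hv]; simp
      · rw [hqf, abs_of_nonneg (by linarith [hup q x y])]
        have := quad_lower (u q) (v q) (w q) x y
        rw [aa_apply]
        nlinarith
    · -- the bound of `M`
      have hE := Real.exp_pos (∫ τ in r..0, ee u v w (ψ .X τ p))
      have h1 : ‖MK (flowOf T) (KS C) k p r‖ ≤
          b * (G1 * Real.exp (∫ τ in r..0, ee u v w (ψ .X τ p))) := by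
        refine hb' _ _ (mul_nonneg hG10 hE.le) fun i j => ?_
        rw [MK_apply, abs_neg]
        exact (hG (KS C i j) k p r hr).trans (mul_le_mul_of_nonneg_right (hG2 i j) hE.le)
      refine h1.trans ?_
      have h2 : Real.exp (∫ τ in r..0, ee u v w (ψ .X τ p)) ≤
          Real.exp (-bm) * Wt (ψ .X) u v w p r := by
        unfold Wt
        rw [← Real.exp_add]
        refine Real.exp_le_exp.2 ?_
        linarith [hbm (ψ .X r p)]
      calc b * (G1 * Real.exp (∫ τ in r..0, ee u v w (ψ .X τ p)))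
          ≤ b * (G1 * (Real.exp (-bm) * Wt (ψ .X) u v w p r)) := by gcongr
        _ = _ := by rw [hC₁]; ring
  have hw0 : ∀ p, Wt (ψ .X) u v w p 0 ≤ Real.exp bM := by
    intro p
    unfold Wt
    rw [intervalIntegral.integral_same, add_zero]
    exact Real.exp_le_exp.2 (hbM _)
  obtain ⟨D, hD⟩ := exists_USolW hK hC₁0 hW hw0
  refine ⟨{ U := D.U, dU := D.dU, jU := D.jU, symU := D.symU, symd := D.symd,
            ric := fun i j => by rw [D.ric, coe_KS], R00 := D.R00, R01 := D.R01,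
            R11 := D.R11 }, D.lower, D.upper, fun i j p r => ?_, fun p => ?_⟩
  · have := D.flow i j p r
    rw [coe_KS] at this
    exact this
  · have := hb p
    rw [bb, hu, hv, hw, hU, ← hD, ← hD, ← hD] at this
    exact this

end Vale.Agent.P207.Q.H791
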